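import Vale.Agent.P298.H995.W5
import Vale.Agent.P298.H513.Mult

/-!
P298, row LC-W (helper995): germs of weighted order `D ≥ w₀ + w₁ + w₂`.

Main results, for `f` with an isolated critical point and regular in `x₃`, such that
`f (T (l^{w₀} y₀, l^{w₁} y₁, l^{w₂} y₂)) = O(l^D)` for `|y| ≤ 1`, where `T` is a linear change of
coordinates:

* `not_inI_coord`: if `w₀ + w₁ + w₂ < D`, some coordinate `h = x_{i₁} ∘ T⁻¹` is not in `I_k(f)` for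
  all `k ≥ w_{i₁}`;
* `not_inI_one`: if `w₀ + w₁ + w₂ ≤ D`, then `1` is not in `I_k(f)` for all `k`.
-/

namespace Vale.Agent.P298.H995

open Filter Topology Metric MeasureTheory Set Vale.Agent.P298 Vale.Agent.P298.H379
open scoped ENNReal

variable {w : Fin 3 → ℕ} {f : (Fin 3 → ℂ) → ℂ}

/-- A germ with finite Milnor number has an isolated critical point. -/
theorem isolated_of_milnor (hf : Hol f) {μ : ℕ} (hμ : Milnor f μ) :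
    ∀ᶠ x in 𝓝 (0 : Fin 3 → ℂ), (∀ l, pd l f x = 0) → x = 0 := by
  have hpd : ∀ i, AnalyticAt ℂ (pd i f) 0 := fun i =>
    ((ContinuousLinearMap.apply ℂ ℂ (Pi.single i (1 : ℂ) : Fin 3 → ℂ)).analyticAt _).comp
      (AnalyticAt.fderiv hf)
  by_cases h0 : ∀ i, pd i f 0 = 0
  · obtain ⟨r, hr, hr0⟩ := ((H513.encard_fibre_le (s := fun i => pd i f) hpd h0 hμ).and
      self_mem_nhdsWithin).exists
    have hr0' : (0 : ℝ) < r := hr0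
    set S := {x ∈ ball (0 : Fin 3 → ℂ) r | ∀ j, pd j f x = (0 : Fin 3 → ℂ) j} with hS
    have hfin : S.Finite := by
      have := hr 0
      exact Set.finite_of_encard_le_coe this
    have h2 : (S \ {0})ᶜ ∈ 𝓝 (0 : Fin 3 → ℂ) :=
      (hfin.subset sdiff_subset).isClosed.isOpen_compl.mem_nhds (by simp)
    filter_upwards [h2, ball_mem_nhds (0 : Fin 3 → ℂ) hr0'] with x hx hxr hcon
    by_contra hx0
    exact hx ⟨⟨hxr, fun j => by simpa using hcon j⟩, hx0⟩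
  · push Not at h0
    obtain ⟨i, hi⟩ := h0
    filter_upwards [(hpd i).continuousAt.eventually_ne hi] with x hx hcon
    exact absurd (hcon i) hx

/-- **LC-W (a).** -/
theorem not_inI_coord (hf : Hol f) (hf0 : f 0 = 0)
    (hcrit : ∀ᶠ x in 𝓝 (0 : Fin 3 → ℂ), (∀ l, pd l f x = 0) → x = 0)
    (hreg : ¬ ∀ᶠ z in 𝓝 (0 : ℂ), f (pt 0 z) = 0) (T : (Fin 3 → ℂ) ≃L[ℂ] (Fin 3 → ℂ))
    (hw : ∀ i, 0 < w i) {D : ℕ}
    (hgr : ∃ C : ℝ, ∀ᶠ l : ℝ in 𝓝[>] 0, ∀ y : Fin 3 → ℂ, ‖y‖ ≤ 1 →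
      ‖f (T fun i => (l : ℂ) ^ w i * y i)‖ ≤ C * l ^ D) (hD : w 0 + w 1 + w 2 < D) :
    ∃ i₁ : Fin 3, ∀ k : ℝ, (w i₁ : ℝ) ≤ k → ∀ r > 0,
      Nloc f r k (fun x => T.symm x i₁) = ∞ := by
  obtain ⟨i₁, c₂, n, hc₂, hDn, h⟩ := core hf hf0 hcrit hreg T hw hgr
  refine ⟨i₁, fun k hk r hr => ?_⟩
  have hw0 : (0 : ℝ) < w i₁ := by exact_mod_cast hw i₁
  have hk0 : 0 < k := hw0.trans_le hk
  have hkp : 0 ≤ 2 / k := by positivity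
  refine h k _ ?_ (fun l => (l ^ w i₁ * c₂) ^ (2 / k)) (c₂ ^ (2 / k)) 1 (by positivity) one_pos
    (fun l hl hl1 => ⟨by positivity, ?_⟩) (fun l hl hl1 x hx => ?_) r hr
  · exact ((continuous_apply i₁).comp T.symm.continuous).measurable
  · have e1 : (l ^ w i₁ * c₂) ^ (2 / k) = (l ^ w i₁) ^ (2 / k) * c₂ ^ (2 / k) :=
      Real.mul_rpow (by positivity) hc₂.le
    have e2 : l ^ 2 ≤ (l ^ w i₁) ^ (2 / k) := by
      rw [← Real.rpow_natCast l (w i₁), ← Real.rpow_mul hl.le, ← Real.rpow_natCast l 2]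
      refine Real.rpow_le_rpow_of_exponent_ge hl hl1 ?_
      rw [Nat.cast_ofNat, mul_div_assoc', div_le_iff₀ hk0]
      linarith
    have e3 : l ^ (2 * n) ≤ l ^ 2 * l ^ (2 * (w 0 + w 1 + w 2)) := by
      rw [← pow_add]
      exact pow_le_pow_of_le_one hl.le hl1 (by omega)
    rw [e1]
    calc c₂ ^ (2 / k) * l ^ (2 * n) ≤ c₂ ^ (2 / k) * (l ^ 2 * l ^ (2 * (w 0 + w 1 + w 2))) := by
          gcongr
      _ ≤ c₂ ^ (2 / k) * ((l ^ w i₁) ^ (2 / k) * l ^ (2 * (w 0 + w 1 + w 2))) := by gcongr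
      _ = _ := by ring
  · exact Real.rpow_le_rpow (by positivity) hx hkp

/-- **LC-W (b).** -/
theorem not_inI_one (hf : Hol f) (hf0 : f 0 = 0)
    (hcrit : ∀ᶠ x in 𝓝 (0 : Fin 3 → ℂ), (∀ l, pd l f x = 0) → x = 0)
    (hreg : ¬ ∀ᶠ z in 𝓝 (0 : ℂ), f (pt 0 z) = 0) (T : (Fin 3 → ℂ) ≃L[ℂ] (Fin 3 → ℂ))
    (hw : ∀ i, 0 < w i) {D : ℕ}
    (hgr : ∃ C : ℝ, ∀ᶠ l : ℝ in 𝓝[>] 0, ∀ y : Fin 3 → ℂ, ‖y‖ ≤ 1 →
      ‖f (T fun i => (l : ℂ) ^ w i * y i)‖ ≤ C * l ^ D) (hD : w 0 + w 1 + w 2 ≤ D) (k : ℝ) :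
    ∀ r > 0, Nloc f r k (fun _ => 1) = ∞ := by
  obtain ⟨i₁, c₂, n, hc₂, hDn, h⟩ := core hf hf0 hcrit hreg T hw hgr
  refine h k _ measurable_const (fun _ => 1) 1 1 one_pos one_pos
    (fun l hl hl1 => ⟨zero_le_one, ?_⟩) (fun l hl hl1 x hx => ?_)
  · rw [one_mul, one_mul]
    exact pow_le_pow_of_le_one hl.le hl1 (by omega)
  · rw [norm_one, Real.one_rpow]

/-- **LC-W.** A germ with finite Milnor number, regular in `x₃`, of weighted order larger than the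
sum of the weights, is not log canonical. -/
theorem exists_not_inI (hf : Hol f) (hf0 : f 0 = 0) {μ : ℕ} (hμ : Milnor f μ)
    (hreg : ¬ ∀ᶠ z in 𝓝 (0 : ℂ), f (pt 0 z) = 0) (T : (Fin 3 → ℂ) ≃L[ℂ] (Fin 3 → ℂ))
    (hw : ∀ i, 0 < w i) {D : ℕ}
    (hgr : ∃ C : ℝ, ∀ᶠ l : ℝ in 𝓝[>] 0, ∀ y : Fin 3 → ℂ, ‖y‖ ≤ 1 →
      ‖f (T fun i => (l : ℂ) ^ w i * y i)‖ ≤ C * l ^ D) (hD : w 0 + w 1 + w 2 < D) :
    ∃ h : (Fin 3 → ℂ) → ℂ, Hol h ∧ h 0 = 0 ∧ ∃ K : ℝ, 0 < K ∧ ∀ k, K ≤ k → ¬ InI f k h := by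
  obtain ⟨i₁, h⟩ := not_inI_coord hf hf0 (isolated_of_milnor hf hμ) hreg T hw hgr hD
  refine ⟨fun x => T.symm x i₁, ?_, by simp, w i₁, by exact_mod_cast hw i₁, fun k hk => ?_⟩
  · exact (ccL T i₁).analyticAt 0
  · rintro ⟨-, r, hr, hlt⟩
    exact hlt.ne (h k hk r hr)

/-- **LC-W.** A germ with finite Milnor number, regular in `x₃`, of weighted order at least the
sum of the weights: `1` is in no ideal `I_k(f)`. -/
theorem not_inI_one_of_milnor (hf : Hol f) (hf0 : f 0 = 0) {μ : ℕ} (hμ : Milnor f μ)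
    (hreg : ¬ ∀ᶠ z in 𝓝 (0 : ℂ), f (pt 0 z) = 0) (T : (Fin 3 → ℂ) ≃L[ℂ] (Fin 3 → ℂ))
    (hw : ∀ i, 0 < w i) {D : ℕ}
    (hgr : ∃ C : ℝ, ∀ᶠ l : ℝ in 𝓝[>] 0, ∀ y : Fin 3 → ℂ, ‖y‖ ≤ 1 →
      ‖f (T fun i => (l : ℂ) ^ w i * y i)‖ ≤ C * l ^ D) (hD : w 0 + w 1 + w 2 ≤ D) (k : ℝ) :
    ¬ InI f k fun _ => 1 := by
  rintro ⟨-, r, hr, hlt⟩
  exact hlt.ne (not_inI_one hf hf0 (isolated_of_milnor hf hμ) hreg T hw hgr hD k r hr)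

end Vale.Agent.P298.H995
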