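import Mathlib

/-!
P298, block LC (helper995), cubics, part 1: for every ternary cubic form `c(X, Y, Z)` either
`c(1, Y, Z)` has an isolated critical point, or after a linear change of coordinates which keeps
`X` the form is `a₀ Y³ + a₁ Y² Z + b₀ X Y² + d X² Y + e X² Z + g X³` with `a₁ e = 0`.
-/

namespace Vale.Agent.P298.H995.Cub

open Filter Topology Set

/-- `γ` has an isolated critical point. -/
def IsoCrit (γ : ℂ × ℂ → ℂ) : Prop :=
  ∃ p, fderiv ℂ γ p = 0 ∧ ∀ᶠ q in 𝓝 p, fderiv ℂ γ q = 0 → q = p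

theorem isoCrit_of_finite {γ : ℂ × ℂ → ℂ} (hne : ∃ q, fderiv ℂ γ q = 0)
    (hfin : {q | fderiv ℂ γ q = 0}.Finite) : IsoCrit γ := by
  obtain ⟨p, hp⟩ := hne
  refine ⟨p, hp, ?_⟩
  have h : ({q | fderiv ℂ γ q = 0} \ {p})ᶜ ∈ 𝓝 p :=
    (hfin.subset sdiff_subset).isClosed.isOpen_compl.mem_nhds (by simp)
  filter_upwards [h] with q hq hq0
  by_contra hne
  exact hq ⟨hq0, hne⟩

theorem isoCrit_comp {γ : ℂ × ℂ → ℂ} (hγ : Differentiable ℂ γ) (A : (ℂ × ℂ) ≃L[ℂ] (ℂ × ℂ))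
    (s : ℂ × ℂ) (h : IsoCrit fun q => γ (s + A q)) : IsoCrit γ := by
  have hd : ∀ q, fderiv ℂ (fun q => γ (s + A q)) q =
      (fderiv ℂ γ (s + A q)).comp (A : (ℂ × ℂ) →L[ℂ] (ℂ × ℂ)) := by
    intro q
    have h1 : HasFDerivAt (fun q => s + A q) (A : (ℂ × ℂ) →L[ℂ] (ℂ × ℂ)) q :=
      ((A : (ℂ × ℂ) →L[ℂ] (ℂ × ℂ)).hasFDerivAt).const_add s
    exact ((hγ _).hasFDerivAt.comp q h1).fderiv
  have h0 : ∀ q, fderiv ℂ (fun q => γ (s + A q)) q = 0 ↔ fderiv ℂ γ (s + A q) = 0 := by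
    intro q
    rw [hd]
    constructor
    · intro h2
      ext
      · have := DFunLike.congr_fun h2 (A.symm (1, 0))
        simpa using this
      · have := DFunLike.congr_fun h2 (A.symm (0, 1))
        simpa using this
    · intro h2
      rw [h2, ContinuousLinearMap.zero_comp]
  obtain ⟨p, hp, hev⟩ := h
  refine ⟨s + A p, (h0 p).1 hp, ?_⟩
  have hc : Tendsto (fun q => A.symm (q - s)) (𝓝 (s + A p)) (𝓝 p) := by
    have hcont : Continuous fun q : ℂ × ℂ => A.symm (q - s) := by fun_prop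
    have := hcont.tendsto (s + A p)
    rwa [add_sub_cancel_left, A.symm_apply_apply] at this
  filter_upwards [hc.eventually hev] with q hq hq0
  have h3 : s + A (A.symm (q - s)) = q := by rw [A.apply_symm_apply]; abel
  have h4 := hq ((h0 _).2 (by rw [h3]; exact hq0))
  rw [← h3, h4]

/-- the cubic form with given coefficients -/
def Cu (a₀ a₁ a₂ a₃ b₀ b₁ b₂ d e g X Y Z : ℂ) : ℂ :=
  a₀ * Y ^ 3 + a₁ * Y ^ 2 * Z + a₂ * Y * Z ^ 2 + a₃ * Z ^ 3 +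
    X * (b₀ * Y ^ 2 + b₁ * Y * Z + b₂ * Z ^ 2) + X ^ 2 * (d * Y + e * Z) + g * X ^ 3

/-- a cubic form in three variables -/
def IsCub (c : ℂ → ℂ → ℂ → ℂ) : Prop :=
  ∃ a₀ a₁ a₂ a₃ b₀ b₁ b₂ d e g, ∀ X Y Z, c X Y Z = Cu a₀ a₁ a₂ a₃ b₀ b₁ b₂ d e g X Y Z

theorem hasFDerivAt_Cu (a₀ a₁ a₂ a₃ b₀ b₁ b₂ d e g : ℂ) (q : ℂ × ℂ) :
    HasFDerivAt (fun q : ℂ × ℂ => Cu a₀ a₁ a₂ a₃ b₀ b₁ b₂ d e g 1 q.1 q.2)
      ((3 * a₀ * q.1 ^ 2 + 2 * a₁ * q.1 * q.2 + a₂ * q.2 ^ 2 + 2 * b₀ * q.1 + b₁ * q.2 + d) •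
          ContinuousLinearMap.fst ℂ ℂ ℂ +
        (a₁ * q.1 ^ 2 + 2 * a₂ * q.1 * q.2 + 3 * a₃ * q.2 ^ 2 + b₁ * q.1 + 2 * b₂ * q.2 + e) •
          ContinuousLinearMap.snd ℂ ℂ ℂ) q := by
  have hu : HasFDerivAt (fun q : ℂ × ℂ => q.1) (ContinuousLinearMap.fst ℂ ℂ ℂ) q :=
    hasFDerivAt_fst
  have hv : HasFDerivAt (fun q : ℂ × ℂ => q.2) (ContinuousLinearMap.snd ℂ ℂ ℂ) q :=
    hasFDerivAt_snd
  have hu2 := HasFDerivAt.pow hu 2
  have hv2 := HasFDerivAt.pow hv 2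
  have hu3 := HasFDerivAt.pow hu 3
  have hv3 := HasFDerivAt.pow hv 3
  have h := (((((hu3.const_mul a₀).fun_add ((hu2.const_mul a₁).fun_mul
    hv)).fun_add ((hu.const_mul a₂).fun_mul hv2)).fun_add
    (hv3.const_mul a₃)).fun_add
    (((hu2.const_mul b₀).fun_add ((hu.const_mul b₁).fun_mul hv)).fun_add
      (hv2.const_mul b₂))).fun_add ((hu.const_mul d).fun_add (hv.const_mul e))
  have h2 := h.add_const g
  have he : (fun q : ℂ × ℂ => Cu a₀ a₁ a₂ a₃ b₀ b₁ b₂ d e g 1 q.1 q.2) = fun q : ℂ × ℂ =>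
      a₀ * q.1 ^ 3 + a₁ * q.1 ^ 2 * q.2 + a₂ * q.1 * q.2 ^ 2 + a₃ * q.2 ^ 3 +
        (b₀ * q.1 ^ 2 + b₁ * q.1 * q.2 + b₂ * q.2 ^ 2) + (d * q.1 + e * q.2) + g := by
    funext q
    simp only [Cu]
    ring
  rw [he]
  refine h2.congr_fderiv ?_
  ext
  · simp
    ring
  · simp
    ring

theorem fderiv_Cu (a₀ a₁ a₂ a₃ b₀ b₁ b₂ d e g : ℂ) (q : ℂ × ℂ) :
    fderiv ℂ (fun q : ℂ × ℂ => Cu a₀ a₁ a₂ a₃ b₀ b₁ b₂ d e g 1 q.1 q.2) q = 0 ↔
      3 * a₀ * q.1 ^ 2 + 2 * a₁ * q.1 * q.2 + a₂ * q.2 ^ 2 + 2 * b₀ * q.1 + b₁ * q.2 + d = 0 ∧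
      a₁ * q.1 ^ 2 + 2 * a₂ * q.1 * q.2 + 3 * a₃ * q.2 ^ 2 + b₁ * q.1 + 2 * b₂ * q.2 + e = 0 := by
  rw [(hasFDerivAt_Cu a₀ a₁ a₂ a₃ b₀ b₁ b₂ d e g q).fderiv]
  constructor
  · intro h
    have h1 := DFunLike.congr_fun h (1, 0)
    have h2 := DFunLike.congr_fun h (0, 1)
    simp at h1 h2
    exact ⟨h1, h2⟩
  · rintro ⟨h1, h2⟩
    ext
    · simp [h1]
    · simp [h2]

theorem poly4 {c₀ c₁ c₂ c₃ c₄ : ℂ} (h : c₁ ≠ 0 ∨ c₂ ≠ 0 ∨ c₃ ≠ 0 ∨ c₄ ≠ 0) :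
    (∃ y, c₀ + c₁ * y + c₂ * y ^ 2 + c₃ * y ^ 3 + c₄ * y ^ 4 = 0) ∧
      {y | c₀ + c₁ * y + c₂ * y ^ 2 + c₃ * y ^ 3 + c₄ * y ^ 4 = 0}.Finite := by
  set p : Polynomial ℂ := Polynomial.C c₀ + Polynomial.C c₁ * Polynomial.X +
    Polynomial.C c₂ * Polynomial.X ^ 2 + Polynomial.C c₃ * Polynomial.X ^ 3 +
    Polynomial.C c₄ * Polynomial.X ^ 4 with hp
  have hev : ∀ y, p.eval y = c₀ + c₁ * y + c₂ * y ^ 2 + c₃ * y ^ 3 + c₄ * y ^ 4 := by
    intro y; simp [hp]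
  have hdeg : 0 < p.degree := by
    rw [← Polynomial.natDegree_pos_iff_degree_pos]
    have hco : ∃ i, 0 < i ∧ p.coeff i ≠ 0 := by
      rcases h with h | h | h | h
      · exact ⟨1, by norm_num, by simpa [hp, Polynomial.coeff_X, Polynomial.coeff_C,
          Polynomial.coeff_X_pow] using h⟩
      · exact ⟨2, by norm_num, by simpa [hp, Polynomial.coeff_X, Polynomial.coeff_C,
          Polynomial.coeff_X_pow] using h⟩
      · exact ⟨3, by norm_num, by simpa [hp, Polynomial.coeff_X, Polynomial.coeff_C,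
          Polynomial.coeff_X_pow] using h⟩
      · exact ⟨4, by norm_num, by simpa [hp, Polynomial.coeff_X, Polynomial.coeff_C,
          Polynomial.coeff_X_pow] using h⟩
    obtain ⟨i, hi, hic⟩ := hco
    exact hi.trans_le (Polynomial.le_natDegree_of_ne_zero hic)
  have hp0 : p ≠ 0 := fun h0 => by simp [h0] at hdeg
  refine ⟨?_, ?_⟩
  · obtain ⟨y, hy⟩ := Complex.exists_root hdeg
    exact ⟨y, by rw [← hev]; exact hy⟩
  · refine (p.roots.toFinset.finite_toSet).subset fun y hy => ?_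
    simp only [mem_ofPred_eq] at hy
    rw [Finset.mem_coe, Multiset.mem_toFinset, Polynomial.mem_roots hp0, Polynomial.IsRoot, hev]
    exact hy

/-- finite sets of pairs -/
theorem finite_pairs {S : Set (ℂ × ℂ)} {F : Set ℂ} (hF : F.Finite) (φ : ℂ → Set ℂ)
    (hφ : ∀ y ∈ F, (φ y).Finite) (h : ∀ q ∈ S, q.1 ∈ F ∧ q.2 ∈ φ q.1) : S.Finite := by
  refine (hF.biUnion fun y hy => (hφ y hy).image (Prod.mk y)).subset fun q hq => ?_
  obtain ⟨h1, h2⟩ := h q hq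
  exact mem_biUnion h1 ⟨q.2, h2, rfl⟩

/-! ### Changes of coordinates -/

/-- `c'` arises from `c` by a linear change of coordinates keeping `X` -/
def Chg (c c' : ℂ → ℂ → ℂ → ℂ) : Prop :=
  ∃ a b k m α β : ℂ, a * m - b * k ≠ 0 ∧
    ∀ X Y Z, c' X Y Z = c X (α * X + a * Y + b * Z) (β * X + k * Y + m * Z)

theorem Chg.refl (c : ℂ → ℂ → ℂ → ℂ) : Chg c c :=
  ⟨1, 0, 0, 1, 0, 0, by norm_num, fun X Y Z => by congr 1 <;> ring⟩

theorem Chg.trans {c c' c'' : ℂ → ℂ → ℂ → ℂ} (h : Chg c c') (h' : Chg c' c'') : Chg c c'' := by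
  obtain ⟨a, b, k, m, α, β, hd, he⟩ := h
  obtain ⟨a', b', k', m', α', β', hd', he'⟩ := h'
  refine ⟨a * a' + b * k', a * b' + b * m', k * a' + m * k', k * b' + m * m',
    α + a * α' + b * β', β + k * α' + m * β', ?_, fun X Y Z => ?_⟩
  · have : (a * a' + b * k') * (k * b' + m * m') - (a * b' + b * m') * (k * a' + m * k') =
      (a * m - b * k) * (a' * m' - b' * k') := by ring
    rw [this]
    exact mul_ne_zero hd hd'
  · rw [he', he]
    congr 1 <;> ring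

/-- the linear equivalence of a two by two matrix -/
noncomputable def mat (a b k m : ℂ) (h : a * m - b * k ≠ 0) : (ℂ × ℂ) ≃L[ℂ] (ℂ × ℂ) :=
  ContinuousLinearEquiv.equivOfInverse
    ((a • ContinuousLinearMap.fst ℂ ℂ ℂ + b • ContinuousLinearMap.snd ℂ ℂ ℂ).prod
      (k • ContinuousLinearMap.fst ℂ ℂ ℂ + m • ContinuousLinearMap.snd ℂ ℂ ℂ))
    (((m / (a * m - b * k)) • ContinuousLinearMap.fst ℂ ℂ ℂ -
      (b / (a * m - b * k)) • ContinuousLinearMap.snd ℂ ℂ ℂ).prod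
      ((a / (a * m - b * k)) • ContinuousLinearMap.snd ℂ ℂ ℂ -
        (k / (a * m - b * k)) • ContinuousLinearMap.fst ℂ ℂ ℂ))
    (by
      rintro ⟨x, y⟩
      refine Prod.ext ?_ ?_
      · simp only [ContinuousLinearMap.prod_apply, add_apply,
          sub_apply, smul_apply,
          ContinuousLinearMap.coe_fst', ContinuousLinearMap.coe_snd', smul_eq_mul]
        rw [div_mul_eq_mul_div, div_mul_eq_mul_div, ← sub_div, div_eq_iff h]
        ring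
      · simp only [ContinuousLinearMap.prod_apply, add_apply,
          sub_apply, smul_apply,
          ContinuousLinearMap.coe_fst', ContinuousLinearMap.coe_snd', smul_eq_mul]
        rw [div_mul_eq_mul_div, div_mul_eq_mul_div, ← sub_div, div_eq_iff h]
        ring)
    (by
      rintro ⟨x, y⟩
      refine Prod.ext ?_ ?_
      · simp only [ContinuousLinearMap.prod_apply, add_apply,
          sub_apply, smul_apply,
          ContinuousLinearMap.coe_fst', ContinuousLinearMap.coe_snd', smul_eq_mul]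
        rw [div_mul_eq_mul_div, div_mul_eq_mul_div, div_mul_eq_mul_div, div_mul_eq_mul_div,
          ← sub_div, ← sub_div, ← mul_div_assoc, ← mul_div_assoc, ← add_div, div_eq_iff h]
        ring
      · simp only [ContinuousLinearMap.prod_apply, add_apply,
          sub_apply, smul_apply,
          ContinuousLinearMap.coe_fst', ContinuousLinearMap.coe_snd', smul_eq_mul]
        rw [div_mul_eq_mul_div, div_mul_eq_mul_div, div_mul_eq_mul_div, div_mul_eq_mul_div,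
          ← sub_div, ← sub_div, ← mul_div_assoc, ← mul_div_assoc, ← add_div, div_eq_iff h]
        ring)

theorem mat_apply (a b k m : ℂ) (h : a * m - b * k ≠ 0) (q : ℂ × ℂ) :
    mat a b k m h q = (a * q.1 + b * q.2, k * q.1 + m * q.2) := by
  simp [mat]

theorem IsCub.differentiable {c : ℂ → ℂ → ℂ → ℂ} (hc : IsCub c) :
    Differentiable ℂ fun q : ℂ × ℂ => c 1 q.1 q.2 := by
  obtain ⟨a₀, a₁, a₂, a₃, b₀, b₁, b₂, d, e, g, h⟩ := hc
  simp only [h]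
  exact fun q => (hasFDerivAt_Cu a₀ a₁ a₂ a₃ b₀ b₁ b₂ d e g q).differentiableAt

theorem Chg.isoCrit {c c' : ℂ → ℂ → ℂ → ℂ} (hc : IsCub c) (h : Chg c c')
    (hi : IsoCrit fun q => c' 1 q.1 q.2) : IsoCrit fun q => c 1 q.1 q.2 := by
  obtain ⟨a, b, k, m, α, β, hd, he⟩ := h
  refine isoCrit_comp hc.differentiable (mat a b k m hd) (α, β) ?_
  have : (fun q : ℂ × ℂ => c' 1 q.1 q.2) = fun q : ℂ × ℂ =>
      c 1 ((α, β) + mat a b k m hd q).1 ((α, β) + mat a b k m hd q).2 := by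
    funext q
    rw [he, mat_apply]
    simp only [Prod.mk_add_mk, mul_one, add_assoc]
  rw [this] at hi
  exact hi

theorem Chg.isCub {c c' : ℂ → ℂ → ℂ → ℂ} (hc : IsCub c) (h : Chg c c') : IsCub c' := by
  obtain ⟨a₀, a₁, a₂, a₃, b₀, b₁, b₂, d, e, g, hcu⟩ := hc
  obtain ⟨a, b, k, m, α, β, -, he⟩ := h
  refine ⟨a₀ * a ^ 3 + a₁ * a ^ 2 * k + a₂ * a * k ^ 2 + a₃ * k ^ 3,
    3 * a₀ * a ^ 2 * b + a₁ * (2 * a * b * k + a ^ 2 * m) + a₂ * (b * k ^ 2 + 2 * a * k * m) +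
      3 * a₃ * k ^ 2 * m,
    3 * a₀ * a * b ^ 2 + a₁ * (b ^ 2 * k + 2 * a * b * m) + a₂ * (2 * b * k * m + a * m ^ 2) +
      3 * a₃ * k * m ^ 2,
    a₀ * b ^ 3 + a₁ * b ^ 2 * m + a₂ * b * m ^ 2 + a₃ * m ^ 3,
    3 * a₀ * α * a ^ 2 + a₁ * (2 * α * a * k + a ^ 2 * β) + a₂ * (α * k ^ 2 + 2 * a * k * β) +
      3 * a₃ * β * k ^ 2 + (b₀ * a ^ 2 + b₁ * a * k + b₂ * k ^ 2),
    6 * a₀ * α * a * b + a₁ * (2 * α * a * m + 2 * α * b * k + 2 * a * b * β) +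
      a₂ * (2 * α * k * m + 2 * a * m * β + 2 * b * k * β) + 6 * a₃ * β * k * m +
      (2 * b₀ * a * b + b₁ * (a * m + b * k) + 2 * b₂ * k * m),
    3 * a₀ * α * b ^ 2 + a₁ * (2 * α * b * m + b ^ 2 * β) + a₂ * (α * m ^ 2 + 2 * b * m * β) +
      3 * a₃ * β * m ^ 2 + (b₀ * b ^ 2 + b₁ * b * m + b₂ * m ^ 2),
    3 * a₀ * α ^ 2 * a + a₁ * (2 * α * a * β + α ^ 2 * k) + a₂ * (2 * α * k * β + a * β ^ 2) +
      3 * a₃ * β ^ 2 * k + (2 * b₀ * α * a + b₁ * (α * k + a * β) + 2 * b₂ * β * k) +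
      (d * a + e * k),
    3 * a₀ * α ^ 2 * b + a₁ * (2 * α * b * β + α ^ 2 * m) + a₂ * (2 * α * m * β + b * β ^ 2) +
      3 * a₃ * β ^ 2 * m + (2 * b₀ * α * b + b₁ * (α * m + b * β) + 2 * b₂ * β * m) +
      (d * b + e * m),
    a₀ * α ^ 3 + a₁ * α ^ 2 * β + a₂ * α * β ^ 2 + a₃ * β ^ 3 +
      (b₀ * α ^ 2 + b₁ * α * β + b₂ * β ^ 2) + (d * α + e * β) + g, fun X Y Z => ?_⟩
  rw [he, hcu]
  simp only [Cu]
  ring

/-- the degenerate normal form -/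
def Deg (c : ℂ → ℂ → ℂ → ℂ) : Prop :=
  ∃ a₀ a₁ b₀ d e g : ℂ, a₁ * e = 0 ∧ ∀ X Y Z, c X Y Z = Cu a₀ a₁ 0 0 b₀ 0 0 d e g X Y Z

/-- the dichotomy -/
def Dich (c : ℂ → ℂ → ℂ → ℂ) : Prop :=
  (IsoCrit fun q => c 1 q.1 q.2) ∨ ∃ c', Chg c c' ∧ Deg c'

theorem Dich.of_chg {c c' : ℂ → ℂ → ℂ → ℂ} (hc : IsCub c) (h : Chg c c') (hd : Dich c') :
    Dich c := by
  rcases hd with hd | ⟨c'', h1, h2⟩
  · exact Or.inl (h.isoCrit hc hd)
  · exact Or.inr ⟨c'', h.trans h1, h2⟩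

/-- `Z` occurs at most to the first power, besides `X Z²` -/
theorem dich_one (a₀ a₁ b₀ b₁ b₂ d e g : ℂ) : Dich (Cu a₀ a₁ 0 0 b₀ b₁ b₂ d e g) := by
  by_cases hb₂ : b₂ = 0
  · subst hb₂
    by_cases ha₁ : a₁ = 0
    · subst ha₁
      by_cases hb₁ : b₁ = 0
      · subst hb₁
        exact Or.inr ⟨_, Chg.refl _, a₀, 0, b₀, d, e, g, by ring, fun X Y Z => rfl⟩
      · left
        refine isoCrit_of_finite ⟨(-e / b₁, -(3 * a₀ * (-e / b₁) ^ 2 + 2 * b₀ * (-e / b₁) + d) / b₁),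
          ?_⟩ ?_
        · rw [fderiv_Cu]
          constructor <;> simp <;> field_simp <;> ring
        · refine (finite_singleton ((-e / b₁,
            -(3 * a₀ * (-e / b₁) ^ 2 + 2 * b₀ * (-e / b₁) + d) / b₁) : ℂ × ℂ)).subset ?_
          rintro ⟨y, z⟩ hq
          rw [mem_ofPred_eq, fderiv_Cu] at hq
          simp only [zero_mul, mul_zero, add_zero, zero_add] at hq
          obtain ⟨h1, h2⟩ := hq
          have hy : y = -e / b₁ := by
            field_simp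
            linear_combination h2
          have hz : z = -(3 * a₀ * (-e / b₁) ^ 2 + 2 * b₀ * (-e / b₁) + d) / b₁ := by
            rw [← hy]
            field_simp
            linear_combination h1
          rw [mem_singleton_iff, ← hz, ← hy]
    · by_cases hΔ : b₁ ^ 2 - 4 * a₁ * e = 0
      · -- a square: translate
        right
        refine ⟨_, ⟨1, 0, 0, 1, -(b₁ / (2 * a₁)), 0, by norm_num, fun X Y Z => rfl⟩, ?_⟩
        refine ⟨a₀, a₁, b₀ - 3 * a₀ * b₁ / (2 * a₁),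
          3 * a₀ * (b₁ / (2 * a₁)) ^ 2 - 2 * b₀ * (b₁ / (2 * a₁)) + d, 0,
          -(a₀ * (b₁ / (2 * a₁)) ^ 3) + b₀ * (b₁ / (2 * a₁)) ^ 2 - d * (b₁ / (2 * a₁)) + g,
          by ring, fun X Y Z => ?_⟩
        have he : e = b₁ ^ 2 / (4 * a₁) := by
          field_simp
          linear_combination -hΔ
        simp only [Cu]
        rw [he]
        field_simp
        ring
      · -- two simple roots
        left
        obtain ⟨δ, hδ⟩ := IsAlgClosed.exists_pow_nat_eq (b₁ ^ 2 - 4 * a₁ * e) (n := 2) (by norm_num)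
        have hδ0 : δ ≠ 0 := by
          rintro rfl
          apply hΔ
          rw [← hδ]
          ring
        refine isoCrit_of_finite ⟨((-b₁ + δ) / (2 * a₁),
          -(3 * a₀ * ((-b₁ + δ) / (2 * a₁)) ^ 2 + 2 * b₀ * ((-b₁ + δ) / (2 * a₁)) + d) / δ), ?_⟩ ?_
        · rw [fderiv_Cu]
          constructor
          · field_simp
            ring
          · field_simp
            linear_combination (4 * a₁ ^ 3 * δ ^ 2) * hδ
        · refine finite_pairs (F := {y | e + b₁ * y + a₁ * y ^ 2 + 0 * y ^ 3 + 0 * y ^ 4 = 0})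
            (poly4 (Or.inr (Or.inl ha₁))).2
            (fun y => {-(3 * a₀ * y ^ 2 + 2 * b₀ * y + d) / (2 * a₁ * y + b₁)})
            (fun y _ => finite_singleton _) ?_
          rintro ⟨y, z⟩ hq
          rw [mem_ofPred_eq, fderiv_Cu] at hq
          obtain ⟨h1, h2⟩ := hq
          simp only at h1 h2
          refine ⟨?_, ?_⟩
          · simp only [mem_ofPred_eq]
            linear_combination h2
          · have hne : 2 * a₁ * y + b₁ ≠ 0 := by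
              intro h0
              apply hΔ
              have : b₁ ^ 2 - 4 * a₁ * e = (2 * a₁ * y + b₁) ^ 2 -
                4 * a₁ * (a₁ * y ^ 2 + 2 * 0 * y * z + 3 * 0 * z ^ 2 + b₁ * y + 2 * 0 * z + e) := by
                  ring
              rw [this, h0, h2]
              ring
            rw [mem_singleton_iff, eq_div_iff hne]
            linear_combination h1
  · -- eliminate `Z`
    by_cases hdeg : 4 * b₀ * b₂ - 2 * a₁ * e - b₁ ^ 2 ≠ 0 ∨ 6 * a₀ * b₂ - 3 * a₁ * b₁ ≠ 0 ∨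
        -2 * a₁ ^ 2 ≠ 0 ∨ (0 : ℂ) ≠ 0
    · left
      obtain ⟨⟨y, hy⟩, hfin⟩ := poly4 (c₀ := 2 * b₂ * d - b₁ * e) hdeg
      refine isoCrit_of_finite ⟨(y, -(a₁ * y ^ 2 + b₁ * y + e) / (2 * b₂)), ?_⟩ ?_
      · rw [fderiv_Cu]
        constructor
        · field_simp
          linear_combination (2 * b₂) * hy
        · field_simp
          ring
      · refine finite_pairs hfin (fun y => {-(a₁ * y ^ 2 + b₁ * y + e) / (2 * b₂)})
          (fun y _ => finite_singleton _) ?_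
        rintro ⟨y, z⟩ hq
        rw [mem_ofPred_eq, fderiv_Cu] at hq
        obtain ⟨h1, h2⟩ := hq
        simp only at h1 h2
        have hz : z = -(a₁ * y ^ 2 + b₁ * y + e) / (2 * b₂) := by
          field_simp
          linear_combination h2
        refine ⟨?_, hz⟩
        simp only [mem_ofPred_eq]
        linear_combination 2 * b₂ * h1 - (2 * a₁ * y + b₁) * h2
    · push Not at hdeg
      obtain ⟨h1, h2, h3, -⟩ := hdeg
      have ha₁ : a₁ = 0 := by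
        have : a₁ ^ 2 = 0 := by linear_combination -h3 / 2
        exact pow_eq_zero_iff (two_ne_zero) |>.1 this
      subst ha₁
      have ha₀ : a₀ = 0 := by
        have : a₀ * b₂ = 0 := by linear_combination h2 / 6
        exact (mul_eq_zero.1 this).resolve_right hb₂
      subst ha₀
      -- `b₂ X (Z + κ Y)²`
      right
      refine ⟨_, ⟨0, 1, 1, -(b₁ / (2 * b₂)), 0, 0, by norm_num, fun X Y Z => rfl⟩, ?_⟩
      refine ⟨0, 0, b₂, e, d - e * (b₁ / (2 * b₂)), g, by ring, fun X Y Z => ?_⟩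
      have hb₀ : b₀ = b₁ ^ 2 / (4 * b₂) := by
        field_simp
        linear_combination h1
      simp only [Cu]
      rw [hb₀]
      field_simp
      ring

/-- three distinct roots at infinity -/
theorem dich_two (a₀ a₁ a₂ b₀ b₁ d e g : ℂ) (ha₂ : a₂ ≠ 0) (hΔ : a₁ ^ 2 - 4 * a₀ * a₂ ≠ 0) :
    Dich (Cu a₀ a₁ a₂ 0 b₀ b₁ 0 d e g) := by
  left
  have hlead : 12 * a₀ * a₂ - 3 * a₁ ^ 2 ≠ 0 := by
    intro h
    apply hΔ
    linear_combination -h / 3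
  obtain ⟨⟨y, hy⟩, hfin⟩ := poly4 (c₀ := e ^ 2) (c₁ := 0) (c₂ := 4 * a₂ * d - b₁ ^ 2 - 2 * a₁ * e)
    (c₃ := 8 * a₂ * b₀ - 4 * a₁ * b₁) (c₄ := 12 * a₀ * a₂ - 3 * a₁ ^ 2)
    (Or.inr (Or.inr (Or.inr hlead)))
  obtain ⟨⟨z₀, hz₀⟩, hfin₀⟩ := poly4 (c₀ := d) (c₁ := b₁) (c₂ := a₂) (c₃ := 0) (c₄ := 0)
    (Or.inr (Or.inl ha₂))
  refine isoCrit_of_finite ?_ ?_
  · by_cases he : e = 0
    · subst he
      refine ⟨(0, z₀), ?_⟩
      rw [fderiv_Cu]
      constructor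
      · linear_combination hz₀
      · ring
    · have hy0 : y ≠ 0 := by
        rintro rfl
        apply he
        have : e ^ 2 = 0 := by linear_combination hy
        exact pow_eq_zero_iff (two_ne_zero) |>.1 this
      refine ⟨(y, -(a₁ * y ^ 2 + b₁ * y + e) / (2 * a₂ * y)), ?_⟩
      rw [fderiv_Cu]
      constructor
      · field_simp
        linear_combination hy
      · field_simp
        ring
  · refine finite_pairs (hfin.insert 0) (fun y => if y = 0 then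
      {z | d + b₁ * z + a₂ * z ^ 2 + 0 * z ^ 3 + 0 * z ^ 4 = 0} else
      {-(a₁ * y ^ 2 + b₁ * y + e) / (2 * a₂ * y)}) ?_ ?_
    · intro y _
      by_cases hy0 : y = 0
      · simp only [hy0, if_true]; exact hfin₀
      · simp only [hy0, if_false]; exact finite_singleton _
    · rintro ⟨y, z⟩ hq
      rw [mem_ofPred_eq, fderiv_Cu] at hq
      obtain ⟨h1, h2⟩ := hq
      simp only at h1 h2
      by_cases hy0 : y = 0
      · subst hy0
        refine ⟨mem_insert _ _, ?_⟩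
        simp only [if_true, mem_ofPred_eq]
        linear_combination h1
      · have hz : z = -(a₁ * y ^ 2 + b₁ * y + e) / (2 * a₂ * y) := by
          field_simp
          linear_combination h2
        refine ⟨mem_insert_of_mem _ ?_, ?_⟩
        · simp only [mem_ofPred_eq]
          linear_combination 4 * a₂ * y ^ 2 * h1 -
            (2 * a₂ * y * z - (a₁ * y ^ 2 + b₁ * y + e) + 2 * y * (2 * a₁ * y + b₁)) * h2
        · simp only [hy0, if_false]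
          exact hz

theorem dich_congr {c c' : ℂ → ℂ → ℂ → ℂ} (h : ∀ X Y Z, c X Y Z = c' X Y Z) (hd : Dich c') :
    Dich c := by
  have : c = c' := by
    funext X Y Z
    exact h X Y Z
  rwa [this]

/-- `Z³` does not occur -/
theorem dich_three (a₀ a₁ a₂ b₀ b₁ b₂ d e g : ℂ) : Dich (Cu a₀ a₁ a₂ 0 b₀ b₁ b₂ d e g) := by
  by_cases ha₂ : a₂ = 0
  · subst ha₂
    exact dich_one a₀ a₁ b₀ b₁ b₂ d e g
  · have hcub : IsCub (Cu a₀ a₁ a₂ 0 b₀ b₁ b₂ d e g) :=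
      ⟨a₀, a₁, a₂, 0, b₀, b₁, b₂, d, e, g, fun X Y Z => rfl⟩
    by_cases hΔ : a₁ ^ 2 - 4 * a₀ * a₂ = 0
    · -- a double root: `a₂ Y (Z + κ Y)²`
      refine Dich.of_chg hcub ⟨0, 1, 1, -(a₁ / (2 * a₂)), 0, 0, by norm_num, fun X Y Z => rfl⟩ ?_
      refine dich_congr (c' := Cu 0 a₂ 0 0 b₂ (b₁ - 2 * b₂ * (a₁ / (2 * a₂)))
        (b₀ - b₁ * (a₁ / (2 * a₂)) + b₂ * (a₁ / (2 * a₂)) ^ 2) e (d - e * (a₁ / (2 * a₂))) g)
        (fun X Y Z => ?_) (dich_one _ _ _ _ _ _ _ _)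
      have ha₀ : a₀ = a₁ ^ 2 / (4 * a₂) := by
        field_simp
        linear_combination -hΔ
      simp only [Cu]
      rw [ha₀]
      field_simp
      ring
    · -- translate
      refine Dich.of_chg hcub ⟨1, 0, 0, 1, -(b₂ / a₂), 0, by norm_num, fun X Y Z => rfl⟩ ?_
      refine dich_congr (c' := Cu a₀ a₁ a₂ 0 (b₀ - 3 * a₀ * (b₂ / a₂)) (b₁ - 2 * a₁ * (b₂ / a₂)) 0
        (d - 2 * b₀ * (b₂ / a₂) + 3 * a₀ * (b₂ / a₂) ^ 2)
        (e - b₁ * (b₂ / a₂) + a₁ * (b₂ / a₂) ^ 2)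
        (g - d * (b₂ / a₂) + b₀ * (b₂ / a₂) ^ 2 - a₀ * (b₂ / a₂) ^ 3))
        (fun X Y Z => ?_) (dich_two _ _ _ _ _ _ _ _ ha₂ hΔ)
      simp only [Cu]
      field_simp
      ring

/-- **Dichotomy.** -/
theorem dich {c : ℂ → ℂ → ℂ → ℂ} (hc : IsCub c) : Dich c := by
  obtain ⟨a₀, a₁, a₂, a₃, b₀, b₁, b₂, d, e, g, h⟩ := hc
  have hcub : IsCub (Cu a₀ a₁ a₂ a₃ b₀ b₁ b₂ d e g) :=
    ⟨a₀, a₁, a₂, a₃, b₀, b₁, b₂, d, e, g, fun X Y Z => rfl⟩
  refine dich_congr h ?_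
  by_cases hlow : a₂ ≠ 0 ∨ a₁ ≠ 0 ∨ a₀ ≠ 0 ∨ (0 : ℂ) ≠ 0
  · obtain ⟨⟨τ, hτ⟩, -⟩ := poly4 (c₀ := a₃) hlow
    refine Dich.of_chg hcub ⟨1, τ, 0, 1, 0, 0, by norm_num, fun X Y Z => rfl⟩ ?_
    refine dich_congr (c' := Cu a₀ (3 * a₀ * τ + a₁) (3 * a₀ * τ ^ 2 + 2 * a₁ * τ + a₂) 0
      b₀ (2 * b₀ * τ + b₁) (b₀ * τ ^ 2 + b₁ * τ + b₂) d (d * τ + e) g)
      (fun X Y Z => ?_) (dich_three _ _ _ _ _ _ _ _ _)
    simp only [Cu]
    linear_combination Z ^ 3 * hτ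
  · push Not at hlow
    obtain ⟨h2, h1, h0, -⟩ := hlow
    refine Dich.of_chg hcub ⟨0, 1, 1, 0, 0, 0, by norm_num, fun X Y Z => rfl⟩ ?_
    refine dich_congr (c' := Cu a₃ 0 0 0 b₂ b₁ b₀ e d g) (fun X Y Z => ?_)
      (dich_three _ _ _ _ _ _ _ _ _)
    simp only [Cu]
    rw [h0, h1, h2]
    ring

end Vale.Agent.P298.H995.Cub
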