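import Vale.Agent.P298.H995.W6
import Vale.Agent.P298.H995.Cub1

/-!
P298, block LC (helper995), cubics, part 2: the cubic part of a germ with vanishing 2-jet; if all
germs vanishing at `0` are in all ideals `I_k(f)`, then the cubic part has, in all linear
coordinates, an isolated critical point on the plane `x₀ = 1`.
-/

namespace Vale.Agent.P298.H995

open Filter Topology Metric Set Vale.Agent.P298 Vale.Agent.P298.H379

/-- `c` is the cubic part of the germ `f` -/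
structure CubPart (f c : (Fin 3 → ℂ) → ℂ) : Prop where
  tri : ∃ B : (Fin 3 → ℂ) →L[ℂ] (Fin 3 → ℂ) →L[ℂ] (Fin 3 → ℂ) →L[ℂ] ℂ, ∀ v, c v = B v v v
  tay : ∃ C : ℝ, ∀ᶠ x in 𝓝 (0 : Fin 3 → ℂ), ‖f x - c x‖ ≤ C * ‖x‖ ^ 4

theorem isCub_tri (B : (Fin 3 → ℂ) →L[ℂ] (Fin 3 → ℂ) →L[ℂ] (Fin 3 → ℂ) →L[ℂ] ℂ)
    (u₀ u₁ u₂ : Fin 3 → ℂ) : Cub.IsCub fun X Y Z =>
      B (X • u₀ + Y • u₁ + Z • u₂) (X • u₀ + Y • u₁ + Z • u₂) (X • u₀ + Y • u₁ + Z • u₂) := by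
  refine ⟨B u₁ u₁ u₁, B u₁ u₁ u₂ + B u₁ u₂ u₁ + B u₂ u₁ u₁, B u₁ u₂ u₂ + B u₂ u₁ u₂ + B u₂ u₂ u₁,
    B u₂ u₂ u₂, B u₀ u₁ u₁ + B u₁ u₀ u₁ + B u₁ u₁ u₀,
    B u₀ u₁ u₂ + B u₀ u₂ u₁ + B u₁ u₀ u₂ + B u₁ u₂ u₀ + B u₂ u₀ u₁ + B u₂ u₁ u₀,
    B u₀ u₂ u₂ + B u₂ u₀ u₂ + B u₂ u₂ u₀, B u₀ u₀ u₁ + B u₀ u₁ u₀ + B u₁ u₀ u₀,
    B u₀ u₀ u₂ + B u₀ u₂ u₀ + B u₂ u₀ u₀, B u₀ u₀ u₀, fun X Y Z => ?_⟩
  simp only [map_add, map_smul, add_apply, smul_apply, smul_eq_mul, Cub.Cu]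
  ring

theorem vec_eq (X Y Z : ℂ) : (![X, Y, Z] : Fin 3 → ℂ) =
    X • Pi.single 0 1 + Y • Pi.single 1 1 + Z • Pi.single 2 1 := by
  funext i
  fin_cases i <;> simp

theorem CubPart.isCub {f c : (Fin 3 → ℂ) → ℂ} (h : CubPart f c)
    (T : (Fin 3 → ℂ) →L[ℂ] (Fin 3 → ℂ)) : Cub.IsCub fun X Y Z => c (T ![X, Y, Z]) := by
  obtain ⟨B, hB⟩ := h.tri
  have := isCub_tri B (T (Pi.single 0 1)) (T (Pi.single 1 1)) (T (Pi.single 2 1))
  convert this using 4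
  rw [hB, vec_eq]
  simp only [map_add, map_smul]

theorem smul_smul_aux (z : ℂ) : (1 / 6 : ℂ) • ((3 : ℕ).factorial • z) = z := by
  simp [Nat.factorial]

/-- Taylor's formula of order three -/
theorem exists_cubPart {f : (Fin 3 → ℂ) → ℂ} (hf : Hol f) (hf0 : f 0 = 0)
    (h1 : ∀ i, pd i f 0 = 0) (h2 : ∀ i j, pd i (pd j f) 0 = 0) : ∃ c, CubPart f c := by
  obtain ⟨p, hp⟩ := hf
  have hf' : AnalyticAt ℂ f 0 := ⟨p, hp⟩
  obtain ⟨r, hr⟩ := id hp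
  have hfac := fun v n => hr.factorial_smul v n
  have hd1 : AnalyticAt ℂ (fderiv ℂ f) 0 := hf'.fderiv
  have hd2 : AnalyticAt ℂ (fderiv ℂ (fderiv ℂ f)) 0 := hd1.fderiv
  -- first derivative
  have hD1 : fderiv ℂ f 0 = 0 := by
    ext v
    rw [Vale.Agent.P298.H373.fderiv_apply_pd]
    simp [h1]
  -- second derivative
  have hD2 : fderiv ℂ (fderiv ℂ f) 0 = 0 := by
    have hij : ∀ i j, fderiv ℂ (fderiv ℂ f) 0 (Pi.single i 1) (Pi.single j 1) = 0 := by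
      intro i j
      have := h2 i j
      unfold pd at this
      have h3 : HasFDerivAt (fun x => fderiv ℂ f x (Pi.single j 1))
          ((ContinuousLinearMap.apply ℂ ℂ (Pi.single j (1 : ℂ) : Fin 3 → ℂ)).comp
            (fderiv ℂ (fderiv ℂ f) 0)) 0 :=
        (ContinuousLinearMap.apply ℂ ℂ (Pi.single j (1 : ℂ) : Fin 3 → ℂ)).hasFDerivAt.comp 0
          hd1.differentiableAt.hasFDerivAt
      rw [h3.fderiv] at this
      simpa using this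
    ext v w
    have hv : v = ∑ l, v l • (Pi.single l (1 : ℂ) : Fin 3 → ℂ) := by
      have := (Pi.basisFun ℂ (Fin 3)).sum_repr v
      simpa using this.symm
    have hw : w = ∑ l, w l • (Pi.single l (1 : ℂ) : Fin 3 → ℂ) := by
      have := (Pi.basisFun ℂ (Fin 3)).sum_repr w
      simpa using this.symm
    rw [hv, hw]
    simp [hij]
  refine ⟨fun v => ((1 / 6 : ℂ) • fderiv ℂ (fderiv ℂ (fderiv ℂ f)) 0) v v v, ⟨_, fun v => rfl⟩, ?_⟩
  have hO := hp.isBigO_sub_partialSum_pow 4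
  obtain ⟨C, hC⟩ := hO.bound
  refine ⟨C, ?_⟩
  filter_upwards [hC] with x hx
  rw [zero_add, norm_pow, norm_norm] at hx
  refine le_trans (le_of_eq ?_) hx
  congr 2
  have e0 : p 0 (fun _ => x) = 0 := by
    have := hfac x 0
    simp only [Nat.factorial_zero, one_smul] at this
    rw [this]
    simp [hf0]
  have e1 : p 1 (fun _ => x) = 0 := by
    have := hfac x 1
    simp only [Nat.factorial_one, one_smul] at this
    rw [this]
    simp [hD1]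
  have e2 : p 2 (fun _ => x) = 0 := by
    have := hfac x 2
    rw [iteratedFDeriv_two_apply, hD2] at this
    simpa using this
  have e3 : p 3 (fun _ => x) = (1 / 6 : ℂ) • fderiv ℂ (fderiv ℂ (fderiv ℂ f)) 0 x x x := by
    have h3 := hfac x 3
    rw [iteratedFDeriv_succ_apply_left] at h3
    have hda : DifferentiableAt ℂ (iteratedFDeriv ℂ 2 f) 0 :=
      (hf'.contDiffAt (n := ⊤)).differentiableAt_iteratedFDeriv (by decide)
    have h4 : HasFDerivAt (fun z => iteratedFDeriv ℂ 2 f z (fun _ => x))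
        ((ContinuousMultilinearMap.apply ℂ (fun _ : Fin 2 => (Fin 3 → ℂ)) ℂ (fun _ => x)).comp
          (fderiv ℂ (iteratedFDeriv ℂ 2 f) 0)) 0 :=
      (ContinuousMultilinearMap.apply ℂ (fun _ : Fin 2 => (Fin 3 → ℂ)) ℂ
        (fun _ => x)).hasFDerivAt.comp 0 hda.hasFDerivAt
    have h5a : HasFDerivAt (fun z => fderiv ℂ (fderiv ℂ f) z x)
        ((ContinuousLinearMap.apply ℂ ((Fin 3 → ℂ) →L[ℂ] ℂ) x).comp
          (fderiv ℂ (fderiv ℂ (fderiv ℂ f)) 0)) 0 := by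
      have := hd2.differentiableAt.hasFDerivAt.clm_apply (hasFDerivAt_const x (0 : Fin 3 → ℂ))
      refine this.congr_fderiv ?_
      ext v w
      simp
    have h5 : HasFDerivAt (fun z => fderiv ℂ (fderiv ℂ f) z x x)
        ((ContinuousLinearMap.apply ℂ ℂ x).comp ((ContinuousLinearMap.apply ℂ
          ((Fin 3 → ℂ) →L[ℂ] ℂ) x).comp (fderiv ℂ (fderiv ℂ (fderiv ℂ f)) 0))) 0 :=
      (ContinuousLinearMap.apply ℂ ℂ x).hasFDerivAt.comp 0 h5a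
    have h6 : (fun z => iteratedFDeriv ℂ 2 f z (fun _ => x)) =
        fun z => fderiv ℂ (fderiv ℂ f) z x x := by
      funext z
      rw [iteratedFDeriv_two_apply]
    rw [h6] at h4
    have h7 := DFunLike.congr_fun (h4.unique h5) x
    simp only [ContinuousLinearMap.comp_apply, ContinuousMultilinearMap.apply_apply,
      ContinuousLinearMap.apply_apply] at h7
    have h8 : (Fin.tail fun _ : Fin 3 => x) = fun _ => x := rfl
    rw [h8, h7] at h3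
    rw [← h3, smul_smul_aux]
  rw [FormalMultilinearSeries.partialSum, Finset.sum_range_succ, Finset.sum_range_succ,
    Finset.sum_range_succ, Finset.sum_range_one, e0, e1, e2, e3]
  simp

/-- weighted growth of a germ whose cubic part is degenerate in some linear coordinates -/
theorem growth {f c : (Fin 3 → ℂ) → ℂ} (h : CubPart f c) (T : (Fin 3 → ℂ) ≃L[ℂ] (Fin 3 → ℂ))
    {w : Fin 3 → ℕ} (hw : ∀ i, 6 ≤ w i) {K : ℝ}
    (hK : ∀ l : ℝ, 0 < l → l ≤ 1 → ∀ y : Fin 3 → ℂ, ‖y‖ ≤ 1 →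
      ‖c (T fun i => (l : ℂ) ^ w i * y i)‖ ≤ K * l ^ 24) :
    ∃ C : ℝ, ∀ᶠ l : ℝ in 𝓝[>] 0, ∀ y : Fin 3 → ℂ, ‖y‖ ≤ 1 →
      ‖f (T fun i => (l : ℂ) ^ w i * y i)‖ ≤ C * l ^ 24 := by
  obtain ⟨C, hC⟩ := h.tay
  obtain ⟨ρ, hρ, hb⟩ := Metric.eventually_nhds_iff_ball.1 hC
  set M : ℝ := ‖(T : (Fin 3 → ℂ) →L[ℂ] (Fin 3 → ℂ))‖ + 1 with hM
  have hM0 : 0 < M := by positivity
  refine ⟨|C| * M ^ 4 + K, ?_⟩
  have hsmall : ∀ᶠ l : ℝ in 𝓝[>] 0, l < min 1 (ρ / M) :=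
    Filter.Eventually.filter_mono nhdsWithin_le_nhds (gt_mem_nhds (by positivity))
  filter_upwards [hsmall, self_mem_nhdsWithin] with l hl hl0 y hy
  have hl0' : (0 : ℝ) < l := hl0
  have hl1 : l ≤ 1 := (hl.trans_le (min_le_left _ _)).le
  have hlρ : l * M < ρ := by
    have := hl.trans_le (min_le_right _ _)
    rwa [lt_div_iff₀ hM0] at this
  set x : Fin 3 → ℂ := fun i => (l : ℂ) ^ w i * y i with hx
  have hxn : ‖x‖ ≤ l ^ 6 := by
    refine (pi_norm_le_iff_of_nonneg (by positivity)).2 fun i => ?_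
    rw [hx]
    simp only [norm_mul, norm_pow, Complex.norm_real, Real.norm_of_nonneg hl0'.le]
    calc l ^ w i * ‖y i‖ ≤ l ^ 6 * 1 := by
          refine mul_le_mul (pow_le_pow_of_le_one hl0'.le hl1 (hw i))
            ((norm_le_pi_norm y i).trans hy) (norm_nonneg _) (by positivity)
      _ = l ^ 6 := mul_one _
  have hTx : ‖T x‖ ≤ M * l ^ 6 := by
    calc ‖T x‖ ≤ ‖(T : (Fin 3 → ℂ) →L[ℂ] (Fin 3 → ℂ))‖ * ‖x‖ :=
          (T : (Fin 3 → ℂ) →L[ℂ] (Fin 3 → ℂ)).le_opNorm x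
      _ ≤ M * l ^ 6 := mul_le_mul (by rw [hM]; linarith) hxn (norm_nonneg _) hM0.le
  have hTb : T x ∈ ball (0 : Fin 3 → ℂ) ρ := by
    rw [mem_ball_zero_iff]
    refine hTx.trans_lt (lt_of_le_of_lt ?_ hlρ)
    rw [mul_comm]
    refine mul_le_mul_of_nonneg_right ?_ hM0.le
    calc l ^ 6 ≤ l ^ 1 := pow_le_pow_of_le_one hl0'.le hl1 (by norm_num)
      _ = l := pow_one l
  have h1 := hb _ hTb
  have h2 : ‖f (T x) - c (T x)‖ ≤ |C| * M ^ 4 * l ^ 24 := by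
    refine h1.trans ?_
    calc C * ‖T x‖ ^ 4 ≤ |C| * ‖T x‖ ^ 4 := by
          gcongr
          exact le_abs_self C
      _ ≤ |C| * (M * l ^ 6) ^ 4 := by gcongr
      _ = |C| * M ^ 4 * l ^ 24 := by ring
  have h3 := hK l hl0' hl1 y hy
  calc ‖f (T x)‖ = ‖(f (T x) - c (T x)) + c (T x)‖ := by rw [sub_add_cancel]
    _ ≤ ‖f (T x) - c (T x)‖ + ‖c (T x)‖ := norm_add_le _ _
    _ ≤ |C| * M ^ 4 * l ^ 24 + K * l ^ 24 := add_le_add h2 h3
    _ = _ := by ring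

theorem norm_mono {z u v : ℂ} (a : ℕ) {b k : ℕ} (h1 : ‖u‖ ≤ 1) (h2 : ‖v‖ ≤ 1) {l : ℝ} (hl : 0 < l)
    (hl1 : l ≤ 1) : ‖z * (l : ℂ) ^ a * u ^ b * v ^ k‖ ≤ ‖z‖ := by
  rw [norm_mul, norm_mul, norm_mul, norm_pow, norm_pow, norm_pow, Complex.norm_real,
    Real.norm_of_nonneg hl.le]
  calc ‖z‖ * l ^ a * ‖u‖ ^ b * ‖v‖ ^ k ≤ ‖z‖ * 1 * 1 * 1 := by
        gcongr
        · exact pow_le_one₀ hl.le hl1
        · exact pow_le_one₀ (norm_nonneg _) h1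
        · exact pow_le_one₀ (norm_nonneg _) h2
    _ = ‖z‖ := by ring

/-- If all germs vanishing at `0` are in all `I_k(f)`, the cubic part is not degenerate in any
linear coordinates. -/
theorem not_deg {f c : (Fin 3 → ℂ) → ℂ} (hf : Hol f) (hf0 : f 0 = 0) {μ : ℕ} (hμ : Milnor f μ)
    (hreg : ¬ ∀ᶠ z in 𝓝 (0 : ℂ), f (pt 0 z) = 0) (hc : CubPart f c)
    (hLC : ∀ h : (Fin 3 → ℂ) → ℂ, Hol h → h 0 = 0 → ∀ k : ℝ, 0 < k → InI f k h)
    (T : (Fin 3 → ℂ) ≃L[ℂ] (Fin 3 → ℂ)) : ¬ Cub.Deg fun X Y Z => c (T ![X, Y, Z]) := by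
  rintro ⟨a₀, a₁, b₀, d, e, g, hae, hcu⟩
  have hex : ∃ w : Fin 3 → ℕ, (∀ i, 6 ≤ w i) ∧ w 0 + w 1 + w 2 = 23 ∧
      ∃ K : ℝ, ∀ l : ℝ, 0 < l → l ≤ 1 → ∀ y : Fin 3 → ℂ, ‖y‖ ≤ 1 →
        ‖c (T fun i => (l : ℂ) ^ w i * y i)‖ ≤ K * l ^ 24 := by
    have hvec : ∀ u : Fin 3 → ℂ, u = ![u 0, u 1, u 2] := by
      intro u
      funext i
      fin_cases i <;> rfl
    rcases mul_eq_zero.1 hae with h0 | h0
    · refine ⟨![9, 8, 6], by decide, by decide, ‖a₀‖ + ‖b₀‖ + ‖d‖ + ‖e‖ + ‖g‖,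
        fun l hl hl1 y hy => ?_⟩
      have hy' : ∀ i, ‖y i‖ ≤ 1 := fun i => (norm_le_pi_norm y i).trans hy
      rw [hvec (fun i => (l : ℂ) ^ (![9, 8, 6] : Fin 3 → ℕ) i * y i)]
      have := hcu ((l : ℂ) ^ 9 * y 0) ((l : ℂ) ^ 8 * y 1) ((l : ℂ) ^ 6 * y 2)
      beta_reduce at this
      simp only [Matrix.cons_val_zero, Matrix.cons_val_one, Matrix.cons_val]
      rw [this, h0]
      have e1 : Cub.Cu a₀ 0 0 0 b₀ 0 0 d e g ((l : ℂ) ^ 9 * y 0) ((l : ℂ) ^ 8 * y 1)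
          ((l : ℂ) ^ 6 * y 2) = (l : ℂ) ^ 24 * (a₀ * (l : ℂ) ^ 0 * y 1 ^ 3 * y 2 ^ 0 +
          b₀ * (l : ℂ) ^ 1 * y 0 ^ 1 * y 1 ^ 2 + d * (l : ℂ) ^ 2 * y 0 ^ 2 * y 1 ^ 1 +
          e * (l : ℂ) ^ 0 * y 0 ^ 2 * y 2 ^ 1 + g * (l : ℂ) ^ 3 * y 0 ^ 3 * y 1 ^ 0) := by
        simp only [Cub.Cu]
        ring
      rw [e1, norm_mul, norm_pow, Complex.norm_real, Real.norm_of_nonneg hl.le, mul_comm]
      gcongr
      refine (norm_add_le _ _).trans (add_le_add ((norm_add_le _ _).trans (add_le_add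
        ((norm_add_le _ _).trans (add_le_add ((norm_add_le _ _).trans (add_le_add ?_ ?_)) ?_))
        ?_)) ?_)
      · exact norm_mono 0 (hy' 1) (hy' 2) hl hl1
      · exact norm_mono 1 (hy' 0) (hy' 1) hl hl1
      · exact norm_mono 2 (hy' 0) (hy' 1) hl hl1
      · exact norm_mono 0 (hy' 0) (hy' 2) hl hl1
      · exact norm_mono 3 (hy' 0) (hy' 1) hl hl1
    · refine ⟨![8, 9, 6], by decide, by decide, ‖a₀‖ + ‖a₁‖ + ‖b₀‖ + ‖d‖ + ‖g‖,
        fun l hl hl1 y hy => ?_⟩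
      have hy' : ∀ i, ‖y i‖ ≤ 1 := fun i => (norm_le_pi_norm y i).trans hy
      rw [hvec (fun i => (l : ℂ) ^ (![8, 9, 6] : Fin 3 → ℕ) i * y i)]
      have := hcu ((l : ℂ) ^ 8 * y 0) ((l : ℂ) ^ 9 * y 1) ((l : ℂ) ^ 6 * y 2)
      beta_reduce at this
      simp only [Matrix.cons_val_zero, Matrix.cons_val_one, Matrix.cons_val]
      rw [this, h0]
      have e1 : Cub.Cu a₀ a₁ 0 0 b₀ 0 0 d 0 g ((l : ℂ) ^ 8 * y 0) ((l : ℂ) ^ 9 * y 1)
          ((l : ℂ) ^ 6 * y 2) = (l : ℂ) ^ 24 * (a₀ * (l : ℂ) ^ 3 * y 1 ^ 3 * y 2 ^ 0 +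
          a₁ * (l : ℂ) ^ 0 * y 1 ^ 2 * y 2 ^ 1 + b₀ * (l : ℂ) ^ 2 * y 0 ^ 1 * y 1 ^ 2 +
          d * (l : ℂ) ^ 1 * y 0 ^ 2 * y 1 ^ 1 + g * (l : ℂ) ^ 0 * y 0 ^ 3 * y 1 ^ 0) := by
        simp only [Cub.Cu]
        ring
      rw [e1, norm_mul, norm_pow, Complex.norm_real, Real.norm_of_nonneg hl.le, mul_comm]
      gcongr
      refine (norm_add_le _ _).trans (add_le_add ((norm_add_le _ _).trans (add_le_add
        ((norm_add_le _ _).trans (add_le_add ((norm_add_le _ _).trans (add_le_add ?_ ?_)) ?_))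
        ?_)) ?_)
      · exact norm_mono 3 (hy' 1) (hy' 2) hl hl1
      · exact norm_mono 0 (hy' 1) (hy' 2) hl hl1
      · exact norm_mono 2 (hy' 0) (hy' 1) hl hl1
      · exact norm_mono 1 (hy' 0) (hy' 1) hl hl1
      · exact norm_mono 0 (hy' 0) (hy' 1) hl hl1
  obtain ⟨w, hw6, hws, K, hK⟩ := hex
  have hw : ∀ i, 0 < w i := fun i => (by norm_num : 0 < 6).trans_le (hw6 i)
  obtain ⟨h, hh, h0, k, hk, hnot⟩ := exists_not_inI hf hf0 hμ hreg T hw (D := 24)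
    (growth hc T hw6 hK) (by omega)
  exact hnot k le_rfl (hLC h hh h0 k hk)

/-- the linear change of coordinates keeping the first coordinate -/
noncomputable def linM (a b k m α β : ℂ) : (Fin 3 → ℂ) →ₗ[ℂ] (Fin 3 → ℂ) where
  toFun v := ![v 0, α * v 0 + a * v 1 + b * v 2, β * v 0 + k * v 1 + m * v 2]
  map_add' u v := by
    funext i
    fin_cases i
    · simp
    · simp; ring
    · simp; ring
  map_smul' z v := by
    funext i
    fin_cases i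
    · simp
    · simp; ring
    · simp; ring

theorem linM_injective {a b k m : ℂ} (α β : ℂ) (h : a * m - b * k ≠ 0) :
    Function.Injective (linM a b k m α β) := by
  rw [← LinearMap.ker_eq_bot, LinearMap.ker_eq_bot']
  intro v hv
  have h0 := congrFun hv 0
  have h1 := congrFun hv 1
  have h2 := congrFun hv 2
  simp only [linM, LinearMap.coe_mk, AddHom.coe_mk, Matrix.cons_val_zero, Matrix.cons_val_one,
    Matrix.cons_val, Pi.zero_apply] at h0 h1 h2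
  have e1 : v 1 * (a * m - b * k) = 0 := by
    linear_combination m * h1 - b * h2 - (m * α - b * β) * h0
  have e2 : v 2 * (a * m - b * k) = 0 := by
    linear_combination a * h2 - k * h1 - (a * β - k * α) * h0
  funext i
  fin_cases i
  · exact h0
  · exact (mul_eq_zero.1 e1).resolve_right h
  · exact (mul_eq_zero.1 e2).resolve_right h

/-- the linear change of coordinates as an equivalence -/
noncomputable def linT {a b k m : ℂ} (α β : ℂ) (h : a * m - b * k ≠ 0) :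
    (Fin 3 → ℂ) ≃L[ℂ] (Fin 3 → ℂ) :=
  (LinearEquiv.ofInjectiveEndo (linM a b k m α β) (linM_injective α β h)).toContinuousLinearEquiv

theorem linT_apply {a b k m : ℂ} (α β : ℂ) (h : a * m - b * k ≠ 0) (X Y Z : ℂ) :
    linT α β h ![X, Y, Z] = ![X, α * X + a * Y + b * Z, β * X + k * Y + m * Z] := rfl

/-- **LC (3).** If all germs vanishing at `0` are in all ideals `I_k(f)`, the cubic part `c` of `f`
has, in all linear coordinates `T`, an isolated critical point on the plane `x₀ = 1`. -/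
theorem isoCrit_of_lc {f c : (Fin 3 → ℂ) → ℂ} (hf : Hol f) (hf0 : f 0 = 0) {μ : ℕ}
    (hμ : Milnor f μ) (hreg : ¬ ∀ᶠ z in 𝓝 (0 : ℂ), f (pt 0 z) = 0) (hc : CubPart f c)
    (hLC : ∀ h : (Fin 3 → ℂ) → ℂ, Hol h → h 0 = 0 → ∀ k : ℝ, 0 < k → InI f k h)
    (T : (Fin 3 → ℂ) ≃L[ℂ] (Fin 3 → ℂ)) :
    Cub.IsoCrit fun q : ℂ × ℂ => c (T ![1, q.1, q.2]) := by
  rcases Cub.dich (hc.isCub (T : (Fin 3 → ℂ) →L[ℂ] (Fin 3 → ℂ))) with h | ⟨c', h1, h2⟩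
  · exact h
  · exfalso
    obtain ⟨a, b, k, m, α, β, hd, he⟩ := h1
    refine not_deg hf hf0 hμ hreg hc hLC ((linT α β hd).trans T) ?_
    obtain ⟨a₀, a₁, b₀, d, e, g, hae, hcu⟩ := h2
    refine ⟨a₀, a₁, b₀, d, e, g, hae, fun X Y Z => ?_⟩
    rw [← hcu, he]
    rfl

end Vale.Agent.P298.H995
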