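import Vale.Agent.P298.H995.Cub2

/-!
P298, block LC (helper995), cubics, part 3: consequences used by the blow-up and flag rows.
-/

namespace Vale.Agent.P298.H995

open Filter Topology Metric Set Vale.Agent.P298 Vale.Agent.P298.H379

variable {f c : (Fin 3 → ℂ) → ℂ}

theorem CubPart.homog (h : CubPart f c) (x : ℂ) (v : Fin 3 → ℂ) : c (x • v) = x ^ 3 * c v := by
  obtain ⟨B, hB⟩ := h.tri
  rw [hB, hB]
  simp only [map_smul, smul_apply, smul_eq_mul]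
  ring

/-- the cubic part is the limit of `f (x v) / x³` -/
theorem CubPart.tendsto (h : CubPart f c) (v : Fin 3 → ℂ) :
    Tendsto (fun x : ℂ => (x ^ 3)⁻¹ * f (x • v)) (𝓝[≠] 0) (𝓝 (c v)) := by
  obtain ⟨C, hC⟩ := h.tay
  have hc : Tendsto (fun x : ℂ => x • v) (𝓝[≠] 0) (𝓝 (0 : Fin 3 → ℂ)) := by
    have h1 : Continuous fun x : ℂ => x • v := by fun_prop
    have := (h1.tendsto 0).mono_left (nhdsWithin_le_nhds (s := {0}ᶜ))
    rwa [zero_smul] at this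
  rw [tendsto_iff_norm_sub_tendsto_zero]
  have hlim : Tendsto (fun x : ℂ => C * ‖v‖ ^ 4 * ‖x‖) (𝓝[≠] 0) (𝓝 0) := by
    have h1 : Continuous fun x : ℂ => C * ‖v‖ ^ 4 * ‖x‖ := by fun_prop
    have := (h1.tendsto 0).mono_left (nhdsWithin_le_nhds (s := {0}ᶜ))
    simpa using this
  refine squeeze_zero' (Eventually.of_forall fun x => norm_nonneg _) ?_ hlim
  filter_upwards [hc.eventually hC, eventually_mem_nhdsWithin] with x hx hx0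
  have hx0' : x ≠ 0 := hx0
  have e1 : (x ^ 3)⁻¹ * f (x • v) - c v = (x ^ 3)⁻¹ * (f (x • v) - c (x • v)) := by
    rw [h.homog, mul_sub, ← mul_assoc (x ^ 3)⁻¹ (x ^ 3), inv_mul_cancel₀ (pow_ne_zero _ hx0'),
      one_mul]
  have hxn : 0 < ‖x‖ := norm_pos_iff.2 hx0'
  rw [e1, norm_mul, norm_inv, norm_pow, inv_mul_le_iff₀ (by positivity)]
  refine hx.trans (le_of_eq ?_)
  rw [norm_smul]
  ring

/-- The cubic part is unique. -/
theorem CubPart.unique {c' : (Fin 3 → ℂ) → ℂ} (h : CubPart f c) (h' : CubPart f c') : c = c' := by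
  funext v
  exact tendsto_nhds_unique (h.tendsto v) (h'.tendsto v)

/-- the cubic part of `f ∘ T` -/
theorem CubPart.comp (h : CubPart f c) (T : (Fin 3 → ℂ) ≃L[ℂ] (Fin 3 → ℂ)) :
    CubPart (fun x => f (T x)) fun x => c (T x) := by
  obtain ⟨B, hB⟩ := h.tri
  refine ⟨⟨((ContinuousLinearMap.compL ℂ (Fin 3 → ℂ) (Fin 3 → ℂ)
    ((Fin 3 → ℂ) →L[ℂ] ℂ)).flip (T : (Fin 3 → ℂ) →L[ℂ] (Fin 3 → ℂ))).comp
      (((ContinuousLinearMap.compL ℂ (Fin 3 → ℂ) ((Fin 3 → ℂ) →L[ℂ] ℂ)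
      ((Fin 3 → ℂ) →L[ℂ] ℂ)) ((ContinuousLinearMap.compL ℂ (Fin 3 → ℂ) (Fin 3 → ℂ) ℂ).flip
        (T : (Fin 3 → ℂ) →L[ℂ] (Fin 3 → ℂ)))).comp (B.comp (T : (Fin 3 → ℂ) →L[ℂ] (Fin 3 → ℂ)))),
      fun v => ?_⟩, ?_⟩
  · rw [hB]
    simp
  · obtain ⟨C, hC⟩ := h.tay
    have hT : Tendsto T (𝓝 0) (𝓝 0) := by
      have := T.continuous.tendsto 0
      rwa [map_zero] at this
    refine ⟨|C| * ‖(T : (Fin 3 → ℂ) →L[ℂ] (Fin 3 → ℂ))‖ ^ 4, ?_⟩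
    filter_upwards [hT.eventually hC] with x hx
    refine hx.trans ?_
    calc C * ‖T x‖ ^ 4 ≤ |C| * ‖T x‖ ^ 4 := by
          gcongr
          exact le_abs_self C
      _ ≤ |C| * (‖(T : (Fin 3 → ℂ) →L[ℂ] (Fin 3 → ℂ))‖ * ‖x‖) ^ 4 := by
          gcongr
          exact (T : (Fin 3 → ℂ) →L[ℂ] (Fin 3 → ℂ)).le_opNorm x
      _ = _ := by ring

/-- The cubic part is not divisible by the square of a linear form. -/
theorem not_sq (hf : Hol f) (hf0 : f 0 = 0) {μ : ℕ} (hμ : Milnor f μ)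
    (hreg : ¬ ∀ᶠ z in 𝓝 (0 : ℂ), f (pt 0 z) = 0) (hc : CubPart f c)
    (hLC : ∀ h : (Fin 3 → ℂ) → ℂ, Hol h → h 0 = 0 → ∀ k : ℝ, 0 < k → InI f k h)
    (T : (Fin 3 → ℂ) ≃L[ℂ] (Fin 3 → ℂ)) (d e g : ℂ) :
    ¬ ∀ X Y Z, c (T ![X, Y, Z]) = X ^ 2 * (g * X + d * Y + e * Z) := by
  intro h
  refine not_deg hf hf0 hμ hreg hc hLC T ⟨0, 0, 0, d, e, g, by ring, fun X Y Z => ?_⟩
  beta_reduce
  rw [h]
  simp only [Cub.Cu]
  ring

end Vale.Agent.P298.H995
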