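import Vale.Agent.P298.H373.Nu
import Vale.Agent.P271.LOCE.Pos
import Vale.Agent.P268.Hol

/-!
P298, row LC-W (helper995), part 1: if `f (0, 0, ·)` is not identically zero near `0`, then the
points of the surface `f = 0` at which `∂₃ f = 0` are negligible for every projection.
-/

namespace Vale.Agent.P298.H995

open Filter Topology Metric MeasureTheory Set Vale.Agent.P298 Vale.Agent.P298.H379
  Vale.Agent.P298.H373
open scoped ENNReal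

/-- a polydisc -/
def Om (ρ₁ ρ : ℝ) : Set (Fin 3 → ℂ) := {x | ‖x 0‖ < ρ₁ ∧ ‖x 1‖ < ρ₁ ∧ ‖x 2‖ < ρ}

theorem isOpen_Om (ρ₁ ρ : ℝ) : IsOpen (Om ρ₁ ρ) := by
  have h : ∀ (i : Fin 3) (r : ℝ), IsOpen {x : Fin 3 → ℂ | ‖x i‖ < r} := fun i r =>
    isOpen_lt (continuous_apply i).norm continuous_const
  exact (h 0 ρ₁).inter ((h 1 ρ₁).inter (h 2 ρ))

theorem pt_mem_Om {ρ₁ ρ : ℝ} {x : Fin 3 → ℂ} (hx : x ∈ Om ρ₁ ρ) {z : ℂ} (hz : ‖z‖ < ρ) :
    pt (pr 0 1 x) z ∈ Om ρ₁ ρ := ⟨hx.1, hx.2.1, hz⟩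

variable {f a b : (Fin 3 → ℂ) → ℂ} {ρ₁ ρ : ℝ}

theorem analytic_line {Ω : Set (Fin 3 → ℂ)} (hf : AnalyticOnNhd ℂ f Ω) {p : ℂ × ℂ} {z : ℂ}
    (hz : pt p z ∈ Ω) : AnalyticAt ℂ (fun z => f (pt p z)) z := by
  have h1 : AnalyticAt ℂ (fun z : ℂ => pt p z) z := by
    refine AnalyticAt.pi fun l => ?_
    fin_cases l
    · exact analyticAt_const
    · exact analyticAt_const
    · exact analyticAt_id
  exact (hf _ hz).fun_comp h1

/-- On a patch, if `∂₃ f` vanishes on a ball, the surface contains a segment in the direction of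
the third axis. -/
theorem segment {i k : Fin 3} (hi2 : i ≠ 2) (hk2 : k ≠ 2) (hik : i ≠ k) {Ω : Set (Fin 3 → ℂ)}
    (hf : AnalyticOnNhd ℂ f Ω) (P : Patch f Ω 0 i 2 k) {p : ℂ × ℂ} {ε : ℝ}
    (hB : ball p ε ⊆ P.W) (h0 : ∀ q ∈ ball p ε, pd 2 f (P.g q) = 0) {t : ℂ} (ht : ‖t‖ < ε) :
    P.g (p.1, p.2 + t) = P.g p + t • Pi.single 2 1 := by
  have hε : 0 < ε := (norm_nonneg t).trans_lt ht
  have hmem : ∀ u ∈ ball (0 : ℂ) ε, (p.1, p.2 + u) ∈ ball p ε := by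
    intro u hu
    rw [mem_ball_zero_iff] at hu
    rw [mem_ball, Prod.dist_eq, dist_self, dist_eq_norm, add_sub_cancel_left]
    exact max_lt hε hu
  -- the derivative in the direction of the third coordinate
  have hder : ∀ u ∈ ball (0 : ℂ) ε, HasDerivAt (fun u : ℂ => P.g (p.1, p.2 + u))
      (Pi.single 2 1 : Fin 3 → ℂ) u := by
    intro u hu
    have hW := hB (hmem u hu)
    have h1 : HasDerivAt (fun u : ℂ => (p.1, p.2 + u)) ((0, 1) : ℂ × ℂ) u :=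
      (hasDerivAt_const u p.1).prodMk ((hasDerivAt_id u).const_add p.2)
    have h2 : HasDerivAt (fun u : ℂ => P.g (p.1, p.2 + u))
        (fderiv ℂ P.g (p.1, p.2 + u) (0, 1)) u :=
      (P.hasFDerivAt hW).comp_hasDerivAt u h1
    have h3 : fderiv ℂ P.g (p.1, p.2 + u) (0, 1) = (Pi.single 2 1 : Fin 3 → ℂ) := by
      have e1 := P.fderiv_i hW (0, 1)
      have e2 := P.fderiv_j hW (0, 1)
      have e3 := P.fderiv_f hf hW (0, 1)
      rw [fderiv_apply_pd, Patch.sum_ijk hi2 hik hk2.symm] at e3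
      rw [h0 _ (hmem u hu)] at e3
      simp only [e1, e2, zero_mul, mul_zero, zero_add, mul_eq_zero] at e3
      have e4 := e3.resolve_right (P.hne _ (P.gU _ hW))
      funext l
      rcases eq_or_eq_or_eq hi2 hik hk2.symm l with h | h | h
      · rw [h, e1, Pi.single_eq_of_ne hi2]
      · rw [h, e2, Pi.single_eq_same]
      · rw [h, e4, Pi.single_eq_of_ne hk2]
    rw [h3] at h2
    exact h2
  have hder2 : ∀ u ∈ ball (0 : ℂ) ε, HasDerivAt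
      (fun u : ℂ => P.g (p.1, p.2 + u) - u • (Pi.single 2 1 : Fin 3 → ℂ)) 0 u := by
    intro u hu
    have h5 := (hder u hu).fun_sub ((hasDerivAt_id' u).smul_const (Pi.single 2 1 : Fin 3 → ℂ))
    rwa [one_smul, sub_self] at h5
  have hconst := (convex_ball (0 : ℂ) ε).is_const_of_fderivWithin_eq_zero (𝕜 := ℂ)
    (f := fun u : ℂ => P.g (p.1, p.2 + u) - u • (Pi.single 2 1 : Fin 3 → ℂ))
    (fun u hu => (hder2 u hu).differentiableAt.differentiableWithinAt)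
    (fun u hu => by
      rw [fderivWithin_of_isOpen isOpen_ball hu, (hder2 u hu).hasFDerivAt.fderiv]
      ext; simp)
    (mem_ball_zero_iff.2 ht) (mem_ball_self hε)
  simp only [add_zero, zero_smul, sub_zero] at hconst
  rw [sub_eq_iff_eq_add] at hconst
  exact hconst

/-- `∂₃ f` does not vanish identically near any point of a patch. -/
theorem frequently_pd_ne {i k : Fin 3} (hi2 : i ≠ 2) (hk2 : k ≠ 2) (hik : i ≠ k)
    (hf : AnalyticOnNhd ℂ f (Om ρ₁ ρ))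
    (hreg : ∃ z, ‖z‖ < ρ ∧ ∀ x ∈ Om ρ₁ ρ, f (pt (pr 0 1 x) z) ≠ 0)
    (P : Patch f (Om ρ₁ ρ) 0 i 2 k) {p : ℂ × ℂ} (hp : p ∈ P.W) :
    ∃ᶠ q in 𝓝 p, pd 2 f (P.g q) ≠ 0 := by
  intro hcon
  obtain ⟨z₁, hz₁, hz₁f⟩ := hreg
  obtain ⟨ε, hε, hB⟩ := Metric.eventually_nhds_iff_ball.1 (hcon.and (P.hW.mem_nhds hp))
  have hseg : ∀ t : ℂ, ‖t‖ < ε → P.g (p.1, p.2 + t) = P.g p + t • Pi.single 2 1 := fun t ht =>
    segment hi2 hk2 hik hf P (fun q hq => (hB q hq).2) (fun q hq => by simpa using (hB q hq).1) ht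
  set x₀ := P.g p with hx₀
  have hx₀Ω : x₀ ∈ Om ρ₁ ρ := P.hUΩ (P.gU p hp)
  have hline : ∀ t : ℂ, pt (pr 0 1 x₀) (x₀ 2 + t) = x₀ + t • Pi.single 2 1 := by
    intro t
    funext l
    fin_cases l <;> simp [pt, pr]
  -- the function on the chord
  have han : AnalyticOnNhd ℂ (fun z => f (pt (pr 0 1 x₀) z)) (ball 0 ρ) := fun z hz =>
    analytic_line hf (pt_mem_Om hx₀Ω (mem_ball_zero_iff.1 hz))
  have hev : (fun z => f (pt (pr 0 1 x₀) z)) =ᶠ[𝓝 (x₀ 2)] 0 := by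
    have : ball (x₀ 2) ε ∈ 𝓝 (x₀ 2) := ball_mem_nhds _ hε
    filter_upwards [this] with z hz
    have ht : ‖z - x₀ 2‖ < ε := by rwa [mem_ball, dist_eq_norm] at hz
    have h1 := hline (z - x₀ 2)
    rw [add_sub_cancel] at h1
    have hq : (p.1, p.2 + (z - x₀ 2)) ∈ ball p ε := by
      rw [mem_ball, Prod.dist_eq, dist_self, dist_eq_norm, add_sub_cancel_left]
      exact max_lt hε ht
    simp only [Pi.zero_apply]
    rw [h1, ← hseg _ ht]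
    exact P.gf _ (hB _ hq).2
  have := han.eqOn_zero_of_preconnected_of_eventuallyEq_zero
    (convex_ball (0 : ℂ) ρ).isPreconnected (mem_ball_zero_iff.2 hx₀Ω.2.2) hev
    (mem_ball_zero_iff.2 hz₁)
  exact hz₁f x₀ hx₀Ω this

theorem hpd_diff {Ω : Set (Fin 3 → ℂ)} (hf : AnalyticOnNhd ℂ f Ω) (l : Fin 3) :
    AnalyticOnNhd ℂ (pd l f) Ω := by
  intro x hx
  exact ((ContinuousLinearMap.apply ℂ ℂ (Pi.single l (1 : ℂ) : Fin 3 → ℂ)).analyticAt _).comp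
    (hf.fderiv x hx)

/-- the zero set of `∂₃ f` on a patch is a null set -/
theorem null_patch {i k : Fin 3} (hi2 : i ≠ 2) (hk2 : k ≠ 2) (hik : i ≠ k)
    (hf : AnalyticOnNhd ℂ f (Om ρ₁ ρ))
    (hreg : ∃ z, ‖z‖ < ρ ∧ ∀ x ∈ Om ρ₁ ρ, f (pt (pr 0 1 x) z) ≠ 0)
    (P : Patch f (Om ρ₁ ρ) 0 i 2 k) : volume {p ∈ P.W | pd 2 f (P.g p) = 0} = 0 := by
  have hdiff : DifferentiableOn ℂ (fun p => pd 2 f (P.g p)) P.W := by
    intro p hp
    have h1 : P.g p ∈ Om ρ₁ ρ := P.hUΩ (P.gU p hp)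
    exact (((hpd_diff hf 2 _ h1).differentiableAt.comp p
      ((P.hg p hp).differentiableAt one_ne_zero))).differentiableWithinAt
  apply measure_null_of_locally_null
  intro p hp
  obtain ⟨δ, hδ, hsub, h0⟩ := Vale.Agent.P271.LOCE.zero_null volume P.hW hdiff hp.1
    (frequently_pd_ne hi2 hk2 hik hf hreg P hp.1)
  refine ⟨{w ∈ ball p δ | pd 2 f (P.g w) = 0}, ?_, h0⟩
  rw [mem_nhdsWithin]
  exact ⟨ball p δ, isOpen_ball, mem_ball_self hδ, fun y hy => ⟨hy.1, hy.2.2⟩⟩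

/-- For every pair `a, b`, almost no fibre of `(a, b)` on the surface meets `∂₃ f = 0` outside the
critical points. -/
theorem null_image (hf : AnalyticOnNhd ℂ f (Om ρ₁ ρ))
    (hreg : ∃ z, ‖z‖ < ρ ∧ ∀ x ∈ Om ρ₁ ρ, f (pt (pr 0 1 x) z) ≠ 0)
    (ha : AnalyticOnNhd ℂ a (Om ρ₁ ρ)) (hb : AnalyticOnNhd ℂ b (Om ρ₁ ρ)) {i k : Fin 3}
    (hi2 : i ≠ 2) (hk2 : k ≠ 2) (hik : i ≠ k) :
    volume ((fun x => (a x, b x)) ''
      {x | x ∈ Om ρ₁ ρ ∧ f x = 0 ∧ pd k f x ≠ 0 ∧ pd 2 f x = 0}) = 0 := by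
  obtain ⟨P, A, -, -, hAU, hReg⟩ := exists_patches (isOpen_Om ρ₁ ρ) hf hi2 hik hk2.symm 0
  have hsub : {x | x ∈ Om ρ₁ ρ ∧ f x = 0 ∧ pd k f x ≠ 0 ∧ pd 2 f x = 0} ⊆
      ⋃ n, A n ∩ {x | pd 2 f x = 0} := by
    rintro x ⟨h1, h2, h3, h4⟩
    have : x ∈ Reg f (Om ρ₁ ρ) 0 k := ⟨h1, h2, h3⟩
    rw [hReg] at this
    obtain ⟨n, hn⟩ := mem_iUnion.1 this
    exact mem_iUnion.2 ⟨n, hn, h4⟩
  refine measure_mono_null (image_mono hsub) ?_
  rw [image_iUnion]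
  refine measure_iUnion_null fun n => ?_
  have himg : (fun x => (a x, b x)) '' (A n ∩ {x | pd 2 f x = 0}) ⊆
      (P n).tau a b '' {p ∈ (P n).W | pd 2 f ((P n).g p) = 0} := by
    rintro _ ⟨x, ⟨hx1, hx2⟩, rfl⟩
    have hxR : x ∈ Reg f (Om ρ₁ ρ) 0 k := by rw [hReg]; exact mem_iUnion.2 ⟨n, hx1⟩
    obtain ⟨p, hp, hpx⟩ := (P n).mem_image (hAU n hx1) hxR.2.1
    refine ⟨p, ⟨hp, ?_⟩, ?_⟩
    · rw [hpx]; exact hx2
    · simp only [Patch.tau, hpx]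
  refine measure_mono_null himg ?_
  refine MeasureTheory.addHaar_image_eq_zero_of_differentiableOn_of_addHaar_eq_zero volume ?_
    (null_patch hi2 hk2 hik hf hreg (P n))
  intro p hp
  exact (((P n).contDiffAt_tau ha hb hp.1).differentiableAt
    one_ne_zero).restrictScalars ℝ |>.differentiableWithinAt

/-- For almost every `q` all points `x ≠ 0` of the surface over `q` satisfy `∂₃ f x ≠ 0` and
have nonvanishing Jacobian determinant. -/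
theorem ae_good (hf : AnalyticOnNhd ℂ f (Om ρ₁ ρ))
    (hreg : ∃ z, ‖z‖ < ρ ∧ ∀ x ∈ Om ρ₁ ρ, f (pt (pr 0 1 x) z) ≠ 0)
    (hcrit : ∀ x ∈ Om ρ₁ ρ, (∀ l, pd l f x = 0) → x = 0)
    (ha : AnalyticOnNhd ℂ a (Om ρ₁ ρ)) (hb : AnalyticOnNhd ℂ b (Om ρ₁ ρ)) :
    ∀ᵐ q : ℂ × ℂ, ∀ x ∈ Om ρ₁ ρ, x ≠ 0 → f x = 0 → a x = q.1 → b x = q.2 →
      pd 2 f x ≠ 0 ∧ jac3 f a b x ≠ 0 := by
  have h1 := ae_fibre (isOpen_Om ρ₁ ρ) hf ha hb 0
  have h2 := null_image hf hreg ha hb (i := 0) (k := 1) (by decide) (by decide) (by decide)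
  have h3 := null_image hf hreg ha hb (i := 1) (k := 0) (by decide) (by decide) (by decide)
  rw [measure_eq_zero_iff_ae_notMem] at h2 h3
  filter_upwards [h1, h2, h3] with q hq1 hq2 hq3 x hx hx0 hfx hax hbx
  have hnc : ¬ ∀ l, pd l f x = 0 := fun h => hx0 (hcrit x hx h)
  refine ⟨fun h => ?_, (hq1 x hx hfx hax hbx).resolve_left hnc⟩
  push Not at hnc
  obtain ⟨l, hl⟩ := hnc
  fin_cases l
  · exact hq3 ⟨x, ⟨hx, hfx, hl, h⟩, Prod.ext hax hbx⟩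
  · exact hq2 ⟨x, ⟨hx, hfx, hl, h⟩, Prod.ext hax hbx⟩
  · exact hl h

end Vale.Agent.P298.H995
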