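import Mathlib

/-!
P298, row LC-W (helper995), part 2: the weighted initial form of an analytic function on `ℂ³`.
-/

namespace Vale.Agent.P298.H995

open Filter Topology Metric Set Finset

/-- weighted dilation -/
def Sc (w : Fin 3 → ℕ) (l : ℂ) (y : Fin 3 → ℂ) : Fin 3 → ℂ := fun i => l ^ w i * y i

variable {w : Fin 3 → ℕ} {p : FormalMultilinearSeries ℂ (Fin 3 → ℂ) ℂ}

theorem Sc_comp (l m : ℂ) (y : Fin 3 → ℂ) : Sc w l (Sc w m y) = Sc w (l * m) y := by
  funext i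
  simp only [Sc, mul_pow, mul_assoc]

theorem norm_Sc_le (hw : ∀ i, 0 < w i) {l : ℂ} (hl : ‖l‖ ≤ 1) (y : Fin 3 → ℂ) :
    ‖Sc w l y‖ ≤ ‖l‖ * ‖y‖ := by
  refine (pi_norm_le_iff_of_nonneg (by positivity)).2 fun i => ?_
  simp only [Sc, norm_mul, norm_pow]
  refine mul_le_mul ?_ (norm_le_pi_norm y i) (norm_nonneg _) (norm_nonneg _)
  calc ‖l‖ ^ w i ≤ ‖l‖ ^ 1 := pow_le_pow_of_le_one (norm_nonneg _) hl (hw i)
    _ = ‖l‖ := pow_one _

/-- the coefficients -/
noncomputable def co (p : FormalMultilinearSeries ℂ (Fin 3 → ℂ) ℂ) (k : ℕ) (r : Fin k → Fin 3) :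
    ℂ := p k fun j => Pi.single (r j) 1

/-- the weight of a monomial -/
def wt (w : Fin 3 → ℕ) {k : ℕ} (r : Fin k → Fin 3) : ℕ := ∑ j, w (r j)

/-- the monomial -/
noncomputable def mon {k : ℕ} (r : Fin k → Fin 3) (y : Fin 3 → ℂ) : ℂ := ∏ j, y (r j)

theorem le_wt (hw : ∀ i, 0 < w i) {k : ℕ} (r : Fin k → Fin 3) : k ≤ wt w r := by
  calc k = ∑ _j : Fin k, 1 := by simp
    _ ≤ wt w r := Finset.sum_le_sum fun j _ => hw (r j)

theorem mon_Sc {k : ℕ} (r : Fin k → Fin 3) (l : ℂ) (y : Fin 3 → ℂ) :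
    mon r (Sc w l y) = l ^ wt w r * mon r y := by
  simp only [mon, Sc, wt, Finset.prod_mul_distrib, Finset.prod_pow_eq_pow_sum]

theorem norm_mon_le {k : ℕ} (r : Fin k → Fin 3) {y : Fin 3 → ℂ} {R : ℝ} (hy : ‖y‖ ≤ R) :
    ‖mon r y‖ ≤ R ^ k := by
  rw [mon, norm_prod]
  calc ∏ j, ‖y (r j)‖ ≤ ∏ _j : Fin k, R :=
        Finset.prod_le_prod (fun _ _ => norm_nonneg _) fun j _ => (norm_le_pi_norm y _).trans hy
    _ = R ^ k := by simp

theorem expand (k : ℕ) (y : Fin 3 → ℂ) :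
    p k (fun _ => y) = ∑ r : Fin k → Fin 3, co p k r * mon r y := by
  classical
  have h1 : y = ∑ i, y i • (Pi.single i 1 : Fin 3 → ℂ) := by
    have := (Pi.basisFun ℂ (Fin 3)).sum_repr y
    simpa using this.symm
  have h2 : p k (fun _ => y) = p k (fun _ => ∑ i, y i • (Pi.single i 1 : Fin 3 → ℂ)) := by
    rw [← h1]
  rw [h2, ContinuousMultilinearMap.map_sum]
  refine Finset.sum_congr rfl fun r _ => ?_
  rw [ContinuousMultilinearMap.map_smul_univ, smul_eq_mul, mul_comm]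
  rfl

/-- the homogeneous parts for the weight -/
noncomputable def part (p : FormalMultilinearSeries ℂ (Fin 3 → ℂ) ℂ) (w : Fin 3 → ℕ) (n : ℕ)
    (y : Fin 3 → ℂ) : ℂ :=
  ∑ k ∈ range (n + 1), ∑ r ∈ (univ : Finset (Fin k → Fin 3)).filter (fun r => wt w r = n),
    co p k r * mon r y

theorem part_Sc (n : ℕ) (l : ℂ) (y : Fin 3 → ℂ) : part p w n (Sc w l y) = l ^ n * part p w n y := by
  simp only [part, Finset.mul_sum]
  refine Finset.sum_congr rfl fun k _ => Finset.sum_congr rfl fun r hr => ?_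
  rw [mon_Sc, (Finset.mem_filter.1 hr).2]
  ring

theorem part_zero_zero (y : Fin 3 → ℂ) : part p w 0 y = p 0 (fun _ => 0) := by
  simp only [part, zero_add, Finset.range_one, Finset.sum_singleton]
  rw [Finset.filter_true_of_mem (fun r _ => by simp [wt]), ← expand]
  congr 1
  funext j
  exact j.elim0

theorem part_eq (hw : ∀ i, 0 < w i) {n N : ℕ} (hn : n < N) (y : Fin 3 → ℂ) :
    part p w n y = ∑ k ∈ range N,
      ∑ r ∈ (univ : Finset (Fin k → Fin 3)).filter (fun r => wt w r = n), co p k r * mon r y := by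
  refine Finset.sum_subset (Finset.range_subset_range.2 hn) fun k _ hk => ?_
  rw [Finset.filter_false_of_mem, Finset.sum_empty]
  intro r _ h
  have := le_wt hw r
  rw [h] at this
  rw [Finset.mem_range] at hk
  omega

theorem partialSum_eq (hw : ∀ i, 0 < w i) (N : ℕ) (l : ℂ) (y : Fin 3 → ℂ) :
    p.partialSum N (Sc w l y) = ∑ n ∈ range N, l ^ n * part p w n y +
      ∑ k ∈ range N, ∑ r ∈ (univ : Finset (Fin k → Fin 3)).filter (fun r => ¬ wt w r < N),
        l ^ wt w r * (co p k r * mon r y) := by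
  classical
  have h1 : ∑ n ∈ range N, l ^ n * part p w n y = ∑ k ∈ range N,
      ∑ r ∈ (univ : Finset (Fin k → Fin 3)).filter (fun r => wt w r < N),
        l ^ wt w r * (co p k r * mon r y) := by
    have h2 : ∀ n ∈ range N, l ^ n * part p w n y = ∑ k ∈ range N,
        ∑ r ∈ (univ : Finset (Fin k → Fin 3)).filter (fun r => wt w r = n),
          l ^ wt w r * (co p k r * mon r y) := by
      intro n hn
      rw [part_eq hw (Finset.mem_range.1 hn), Finset.mul_sum]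
      refine Finset.sum_congr rfl fun k _ => ?_
      rw [Finset.mul_sum]
      refine Finset.sum_congr rfl fun r hr => ?_
      rw [(Finset.mem_filter.1 hr).2]
    rw [Finset.sum_congr rfl h2, Finset.sum_comm]
    refine Finset.sum_congr rfl fun k _ => ?_
    rw [← Finset.sum_fiberwise_of_maps_to (t := range N) (g := fun r : Fin k → Fin 3 => wt w r)
      (s := (univ : Finset (Fin k → Fin 3)).filter (fun r => wt w r < N))
      (fun r hr => Finset.mem_range.2 (Finset.mem_filter.1 hr).2)]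
    refine Finset.sum_congr rfl fun n hn => Finset.sum_congr ?_ fun _ _ => rfl
    ext r
    simp only [Finset.mem_filter, Finset.mem_univ, true_and]
    constructor
    · rintro rfl
      exact ⟨Finset.mem_range.1 hn, rfl⟩
    · exact fun h => h.2
  rw [h1, ← Finset.sum_add_distrib, FormalMultilinearSeries.partialSum]
  refine Finset.sum_congr rfl fun k _ => ?_
  rw [expand, Finset.sum_filter_add_sum_filter_not]
  refine Finset.sum_congr rfl fun r _ => ?_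
  rw [mon_Sc]
  ring

/-- the expansion in weighted homogeneous parts -/
theorem expansion (hw : ∀ i, 0 < w i) {g : (Fin 3 → ℂ) → ℂ} (hg : HasFPowerSeriesAt g p 0)
    (N : ℕ) (R : ℝ) : ∃ C > 0, ∃ l₀ > 0, l₀ ≤ 1 ∧ ∀ l : ℂ, ‖l‖ ≤ l₀ → ∀ y : Fin 3 → ℂ, ‖y‖ ≤ R →
      ‖g (Sc w l y) - ∑ n ∈ range N, l ^ n * part p w n y‖ ≤ C * ‖l‖ ^ N := by
  classical
  obtain ⟨C₁, hC₁, h1⟩ := (hg.isBigO_sub_partialSum_pow N).exists_pos
  rw [Asymptotics.IsBigOWith] at h1
  obtain ⟨δ, hδ, h2⟩ := Metric.eventually_nhds_iff_ball.1 h1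
  set R' : ℝ := max R 1 with hR'
  have hR'1 : 1 ≤ R' := le_max_right _ _
  set C₂ : ℝ := ∑ k ∈ range N,
    ∑ r ∈ (univ : Finset (Fin k → Fin 3)).filter (fun r => ¬ wt w r < N),
      ‖co p k r‖ * R' ^ k with hC₂
  have hC₂0 : 0 ≤ C₂ := Finset.sum_nonneg fun k _ => Finset.sum_nonneg fun r _ => by positivity
  refine ⟨C₁ * R' ^ N + C₂, by positivity, min 1 (δ / (2 * R')), by positivity,
    min_le_left _ _, fun l hl y hy => ?_⟩
  have hl1 : ‖l‖ ≤ 1 := hl.trans (min_le_left _ _)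
  have hy' : ‖y‖ ≤ R' := hy.trans (le_max_left _ _)
  have hz : ‖Sc w l y‖ ≤ ‖l‖ * R' :=
    (norm_Sc_le hw hl1 y).trans (mul_le_mul_of_nonneg_left hy' (norm_nonneg _))
  have hzδ : Sc w l y ∈ ball (0 : Fin 3 → ℂ) δ := by
    rw [mem_ball_zero_iff]
    refine hz.trans_lt ?_
    have := hl.trans (min_le_right _ _)
    calc ‖l‖ * R' ≤ δ / (2 * R') * R' := by gcongr
      _ = δ / 2 := by field_simp
      _ < δ := by linarith
  have h3 := h2 _ hzδ
  rw [zero_add, partialSum_eq hw] at h3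
  have h4 : ‖∑ k ∈ range N, ∑ r ∈ (univ : Finset (Fin k → Fin 3)).filter (fun r => ¬ wt w r < N),
      l ^ wt w r * (co p k r * mon r y)‖ ≤ C₂ * ‖l‖ ^ N := by
    rw [hC₂, Finset.sum_mul]
    refine (norm_sum_le _ _).trans (Finset.sum_le_sum fun k _ => ?_)
    rw [Finset.sum_mul]
    refine (norm_sum_le _ _).trans (Finset.sum_le_sum fun r hr => ?_)
    rw [norm_mul, norm_mul, norm_pow]
    have h5 : ‖l‖ ^ wt w r ≤ ‖l‖ ^ N :=
      pow_le_pow_of_le_one (norm_nonneg _) hl1 (not_lt.1 (Finset.mem_filter.1 hr).2)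
    calc ‖l‖ ^ wt w r * (‖co p k r‖ * ‖mon r y‖) ≤ ‖l‖ ^ N * (‖co p k r‖ * R' ^ k) := by
          gcongr
          exact norm_mon_le r hy'
      _ = ‖co p k r‖ * R' ^ k * ‖l‖ ^ N := by ring
  have h6 : ‖(fun y : Fin 3 → ℂ => ‖y‖ ^ N) (Sc w l y)‖ ≤ R' ^ N * ‖l‖ ^ N := by
    simp only [norm_pow, norm_norm]
    calc ‖Sc w l y‖ ^ N ≤ (‖l‖ * R') ^ N := by gcongr
      _ = R' ^ N * ‖l‖ ^ N := by rw [mul_pow]; ring
  set S := ∑ n ∈ range N, l ^ n * part p w n y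
  set T := ∑ k ∈ range N, ∑ r ∈ (univ : Finset (Fin k → Fin 3)).filter (fun r => ¬ wt w r < N),
      l ^ wt w r * (co p k r * mon r y)
  calc ‖g (Sc w l y) - S‖ = ‖(g (Sc w l y) - (S + T)) + T‖ := by congr 1; ring
    _ ≤ ‖g (Sc w l y) - (S + T)‖ + ‖T‖ := norm_add_le _ _
    _ ≤ C₁ * (R' ^ N * ‖l‖ ^ N) + C₂ * ‖l‖ ^ N := by
        refine add_le_add (h3.trans ?_) h4
        exact mul_le_mul_of_nonneg_left h6 hC₁.le
    _ = (C₁ * R' ^ N + C₂) * ‖l‖ ^ N := by ring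

/-- some weighted homogeneous part does not vanish identically -/
theorem exists_part_ne (hw : ∀ i, 0 < w i) {g : (Fin 3 → ℂ) → ℂ} (hg : HasFPowerSeriesAt g p 0)
    (hne : ¬ ∀ᶠ y in 𝓝 0, g y = 0) : ∃ n, ∃ y, part p w n y ≠ 0 := by
  obtain ⟨ρ, hρ, han⟩ := Metric.eventually_nhds_iff_ball.1 hg.analyticAt.eventually_analyticAt
  set M : ℕ := ∑ i, w i with hM
  have hwM : ∀ i, w i ≤ M := fun i => Finset.single_le_sum (f := w) (fun _ _ => Nat.zero_le _)
    (Finset.mem_univ i)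
  have hne' : ∃ᶠ y in 𝓝 (0 : Fin 3 → ℂ), g y ≠ 0 := not_eventually.1 hne
  obtain ⟨y₀, hy₀g, hy₀⟩ := (hne'.and_eventually
    (ball_mem_nhds (0 : Fin 3 → ℂ) (ε := ρ / 2 ^ M) (by positivity))).exists
  rw [dist_zero_right] at hy₀
  set y₁ : Fin 3 → ℂ := Sc w 2 y₀ with hy₁
  have hy₁n : ‖y₁‖ < ρ := by
    have : ‖y₁‖ ≤ 2 ^ M * ‖y₀‖ := by
      refine (pi_norm_le_iff_of_nonneg (by positivity)).2 fun i => ?_
      simp only [hy₁, Sc, norm_mul, norm_pow, Complex.norm_ofNat]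
      refine mul_le_mul ?_ (norm_le_pi_norm y₀ i) (norm_nonneg _) (by positivity)
      exact pow_le_pow_right₀ (by norm_num) (hwM i)
    refine this.trans_lt ?_
    calc 2 ^ M * ‖y₀‖ < 2 ^ M * (ρ / 2 ^ M) := by gcongr
      _ = ρ := by field_simp
  set h : ℂ → ℂ := fun l => g (Sc w l y₁) with hh
  have hSc : ∀ l : ℂ, AnalyticAt ℂ (fun l : ℂ => Sc w l y₁) l := fun l =>
    AnalyticAt.pi fun i => (analyticAt_id.pow (w i)).mul analyticAt_const
  have hana : AnalyticOnNhd ℂ h (ball 0 1) := by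
    intro l hl
    rw [mem_ball_zero_iff] at hl
    refine (han _ ?_).fun_comp (hSc l)
    rw [mem_ball_zero_iff]
    refine (norm_Sc_le hw hl.le y₁).trans_lt ?_
    calc ‖l‖ * ‖y₁‖ ≤ 1 * ‖y₁‖ := by gcongr
      _ < ρ := by rwa [one_mul]
  have hhalf : h (1 / 2) ≠ 0 := by
    simp only [hh, hy₁, Sc_comp]
    have : Sc w (1 / 2 * 2) y₀ = y₀ := by
      funext i; simp [Sc]
    rw [this]
    exact hy₀g
  have hne0 : ¬ ∀ᶠ l in 𝓝 (0 : ℂ), h l = 0 := by
    intro hev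
    apply hhalf
    refine hana.eqOn_zero_of_preconnected_of_eventuallyEq_zero
      (convex_ball (0 : ℂ) 1).isPreconnected (mem_ball_self one_pos) hev ?_
    rw [mem_ball_zero_iff]
    norm_num
  obtain ⟨n, u, hu, hu0, hev⟩ := (hana 0 (mem_ball_self
    one_pos)).exists_eventuallyEq_pow_smul_nonzero_iff.2 hne0
  by_contra hcon
  push Not at hcon
  obtain ⟨C, hC, l₀, hl₀, -, hexp⟩ := expansion hw hg (n + 1) ‖y₁‖
  have hcont : ∀ᶠ l in 𝓝 (0 : ℂ), ‖u 0‖ / 2 < ‖u l‖ :=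
    (hu.continuousAt.norm).eventually (lt_mem_nhds (by
      have := norm_pos_iff.2 hu0
      linarith))
  have hsmall : ∀ᶠ l in 𝓝 (0 : ℂ), ‖l‖ < min l₀ (‖u 0‖ / (2 * C)) := by
    have : 0 < min l₀ (‖u 0‖ / (2 * C)) := by
      have := norm_pos_iff.2 hu0
      positivity
    filter_upwards [ball_mem_nhds (0 : ℂ) this] with l hl
    rwa [mem_ball_zero_iff] at hl
  have hev2 : ∀ᶠ l in 𝓝[≠] (0 : ℂ), l ≠ 0 := eventually_mem_nhdsWithin
  obtain ⟨l, ⟨⟨hl1, hl2⟩, hl3⟩, hl4⟩ :=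
    (((hev.and hcont).and hsmall).filter_mono nhdsWithin_le_nhds |>.and hev2).exists
  have h1 := hexp l (hl3.le.trans (min_le_left _ _)) y₁ le_rfl
  simp only [hcon, mul_zero, Finset.sum_const_zero, sub_zero] at h1
  have h2 : h l = l ^ n * u l := by
    rw [hl1, sub_zero, smul_eq_mul]
  change ‖h l‖ ≤ _ at h1
  rw [h2, norm_mul, norm_pow, pow_succ] at h1
  have hlp : 0 < ‖l‖ ^ n := pow_pos (norm_pos_iff.2 hl4) n
  have h3 : ‖u l‖ ≤ C * ‖l‖ := by
    have : ‖l‖ ^ n * ‖u l‖ ≤ ‖l‖ ^ n * (C * ‖l‖) := by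
      calc _ ≤ _ := h1
        _ = _ := by ring
    exact le_of_mul_le_mul_left this hlp
  have h4 : C * ‖l‖ ≤ ‖u 0‖ / 2 := by
    calc C * ‖l‖ ≤ C * (‖u 0‖ / (2 * C)) := by
          gcongr
          exact hl3.le.trans (min_le_right _ _)
      _ = ‖u 0‖ / 2 := by field_simp
  linarith

/-- polynomial functions in every coordinate -/
theorem part_poly (n : ℕ) (j : Fin 3) (y : Fin 3 → ℂ) : ∃ q : Polynomial ℂ, ∀ τ : ℂ,
    q.eval τ = part p w n (Function.update y j τ) := by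
  classical
  refine ⟨∑ k ∈ range (n + 1), ∑ r ∈ (univ : Finset (Fin k → Fin 3)).filter (fun r => wt w r = n),
    Polynomial.C (co p k r) * ∏ i, (if r i = j then Polynomial.X else Polynomial.C (y (r i))),
    fun τ => ?_⟩
  simp only [part, Polynomial.eval_finsetSum, Polynomial.eval_mul, Polynomial.eval_C, mon,
    Polynomial.eval_prod]
  refine Finset.sum_congr rfl fun k _ => Finset.sum_congr rfl fun r _ => ?_
  congr 1
  refine Finset.prod_congr rfl fun i _ => ?_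
  by_cases h : r i = j
  · simp [h]
  · simp [h]

theorem part_continuous (n : ℕ) : Continuous (part p w n) := by
  unfold part mon
  fun_prop

/-- **Initial form.** -/
theorem exists_initial (hw : ∀ i, 0 < w i) {g : (Fin 3 → ℂ) → ℂ} (hg : AnalyticAt ℂ g 0)
    (hg0 : g 0 = 0) (hne : ¬ ∀ᶠ y in 𝓝 0, g y = 0) :
    ∃ (n : ℕ) (G : (Fin 3 → ℂ) → ℂ), 0 < n ∧ Continuous G ∧ (∃ y, G y ≠ 0) ∧
      (∀ l y, G (Sc w l y) = l ^ n * G y) ∧
      (∀ (j : Fin 3) (y : Fin 3 → ℂ), ∃ q : Polynomial ℂ, ∀ τ : ℂ,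
        q.eval τ = G (Function.update y j τ)) ∧
      ∀ R : ℝ, ∀ ε > 0, ∃ l₀ > 0, l₀ ≤ 1 ∧ ∀ l : ℂ, ‖l‖ ≤ l₀ → ∀ y : Fin 3 → ℂ, ‖y‖ ≤ R →
        ‖g (Sc w l y) - l ^ n * G y‖ ≤ ε * ‖l‖ ^ n := by
  classical
  obtain ⟨p, hp⟩ := hg
  have hex := exists_part_ne (w := w) hw hp hne
  set n := Nat.find hex with hn
  have hn1 : ∃ y, part p w n y ≠ 0 := Nat.find_spec hex
  have hlt : ∀ m < n, ∀ y, part p w m y = 0 := by
    intro m hm y
    have := Nat.find_min hex hm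
    push Not at this
    exact this y
  refine ⟨n, part p w n, ?_, part_continuous n, hn1, fun l y => part_Sc n l y,
    fun j y => part_poly n j y, fun R ε hε => ?_⟩
  · rcases Nat.eq_zero_or_pos n with h0 | h0
    · exfalso
      obtain ⟨y, hy⟩ := hn1
      rw [h0, part_zero_zero] at hy
      apply hy
      have := hp.coeff_zero (fun _ => 0)
      rw [this, hg0]
    · exact h0
  · obtain ⟨C, hC, l₀, hl₀, hl₀1, hexp⟩ := expansion hw hp (n + 1) R
    refine ⟨min l₀ (ε / C), by positivity, (min_le_left _ _).trans hl₀1, fun l hl y hy => ?_⟩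
    have h1 := hexp l (hl.trans (min_le_left _ _)) y hy
    rw [Finset.sum_range_succ, Finset.sum_eq_zero (fun m hm => by
      rw [hlt m (Finset.mem_range.1 hm), mul_zero]), zero_add] at h1
    refine h1.trans ?_
    rw [pow_succ]
    have h2 : C * ‖l‖ ≤ ε := by
      calc C * ‖l‖ ≤ C * (ε / C) := by
            gcongr
            exact hl.trans (min_le_right _ _)
        _ = ε := by field_simp
    calc C * (‖l‖ ^ n * ‖l‖) = (C * ‖l‖) * ‖l‖ ^ n := by ring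
      _ ≤ ε * ‖l‖ ^ n := by gcongr

end Vale.Agent.P298.H995
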