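import Vale.Agent.P298.H995.W2

/-!
P298, row LC-W (helper995), part 3: roots of the initial form and of the rescaled function.
-/

namespace Vale.Agent.P298.H995

open Filter Topology Metric Set

variable {w : Fin 3 → ℕ}

theorem exists_root {G : (Fin 3 → ℂ) → ℂ} (hc : Continuous G) (hne : ∃ y, G y ≠ 0)
    (h0 : G 0 = 0)
    (hpoly : ∀ (j : Fin 3) (y : Fin 3 → ℂ), ∃ q : Polynomial ℂ, ∀ τ : ℂ,
      q.eval τ = G (Function.update y j τ)) :
    ∃ (j : Fin 3) (y : Fin 3 → ℂ), G y = 0 ∧ (∃ τ, G (Function.update y j τ) ≠ 0) ∧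
      ∀ i, i ≠ j → y i ≠ 0 := by
  -- the function depends on some variable
  have h1 : ∃ (j : Fin 3) (y : Fin 3 → ℂ) (τ₁ τ₂ : ℂ),
      G (Function.update y j τ₁) ≠ G (Function.update y j τ₂) := by
    by_contra hcon
    push Not at hcon
    obtain ⟨y, hy⟩ := hne
    apply hy
    have e0 : G y = G (Function.update y 0 0) := by
      have := hcon 0 y (y 0) 0
      rwa [Function.update_eq_self] at this
    have e1 : G (Function.update y 0 0) = G (Function.update (Function.update y 0 0) 1 0) := by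
      have := hcon 1 (Function.update y 0 0) (Function.update y 0 0 1) 0
      rwa [Function.update_eq_self] at this
    have e2 : G (Function.update (Function.update y 0 0) 1 0) =
        G (Function.update (Function.update (Function.update y 0 0) 1 0) 2 0) := by
      have := hcon 2 (Function.update (Function.update y 0 0) 1 0)
        (Function.update (Function.update y 0 0) 1 0 2) 0
      rwa [Function.update_eq_self] at this
    have e3 : Function.update (Function.update (Function.update y 0 0) 1 0) 2 0 = 0 := by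
      funext l
      fin_cases l <;> simp [Function.update]
    rw [e0, e1, e2, e3, h0]
  obtain ⟨j, y, τ₁, τ₂, hy⟩ := h1
  -- make all coordinates nonzero
  have hcont : ∀ τ : ℂ, Continuous fun u : ℂ => G (Function.update (fun i => y i + u) j τ) := by
    intro τ
    refine hc.comp ?_
    refine continuous_pi fun l => ?_
    by_cases h : l = j
    · subst h; simpa using continuous_const
    · simp only [Function.update_of_ne h]; fun_prop
  have h2 : ∀ᶠ u in 𝓝 (0 : ℂ), G (Function.update (fun i => y i + u) j τ₁) ≠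
      G (Function.update (fun i => y i + u) j τ₂) := by
    have h3 : {u : ℂ | G (Function.update (fun i => y i + u) j τ₁) ≠
      G (Function.update (fun i => y i + u) j τ₂)} ∈ 𝓝 (0 : ℂ) := by
      refine (isOpen_ne_fun (hcont τ₁) (hcont τ₂)).mem_nhds ?_
      simpa using hy
    exact h3
  have h4 : ∀ i, ∀ᶠ u in 𝓝[≠] (0 : ℂ), y i + u ≠ 0 := by
    intro i
    by_cases hi : y i = 0
    · filter_upwards [eventually_mem_nhdsWithin] with u hu
      rw [hi, zero_add]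
      exact hu
    · refine Filter.Eventually.filter_mono nhdsWithin_le_nhds ?_
      have : ContinuousAt (fun u : ℂ => y i + u) 0 := by fun_prop
      exact this.eventually_ne (by simpa using hi)
  obtain ⟨u, hu1, hu2⟩ := ((h2.filter_mono nhdsWithin_le_nhds).and (eventually_all.2 h4)).exists
  obtain ⟨q, hq⟩ := hpoly j (fun i => y i + u)
  have hdeg : 0 < q.degree := by
    by_contra hcon
    have h5 := Polynomial.eq_C_of_degree_le_zero (not_lt.1 hcon)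
    apply hu1
    rw [← hq, ← hq, h5, Polynomial.eval_C, Polynomial.eval_C]
  obtain ⟨z, hz⟩ := Complex.exists_root hdeg
  refine ⟨j, Function.update (fun i => y i + u) j z, ?_, ?_, ?_⟩
  · rw [← hq]; exact hz
  · by_contra hcon
    push Not at hcon
    have e1 := hcon τ₁
    have e2 := hcon τ₂
    rw [Function.update_idem] at e1 e2
    exact hu1 (e1.trans e2.symm)
  · intro i hi
    rw [Function.update_of_ne hi]
    exact hu2 i

/-- the point with coordinates `q.1, q.2, τ` at the places `i₁`, `i₂` and the remaining one -/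
def emb (i₁ i₂ : Fin 3) (q : ℂ × ℂ) (τ : ℂ) : Fin 3 → ℂ :=
  fun l => if l = i₁ then q.1 else if l = i₂ then q.2 else τ

theorem cases3 : ∀ {i₁ i₂ j : Fin 3}, j ≠ i₁ → j ≠ i₂ → i₁ ≠ i₂ →
    ∀ l : Fin 3, l = i₁ ∨ l = i₂ ∨ l = j := by
  decide

variable {i₁ i₂ j : Fin 3}

theorem emb_continuous : Continuous fun p : (ℂ × ℂ) × ℂ => emb i₁ i₂ p.1 p.2 := by
  refine continuous_pi fun l => ?_
  by_cases h1 : l = i₁
  · simp only [emb, h1, if_true]; fun_prop
  · by_cases h2 : l = i₂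
    · simp only [emb, h2, if_true]
      have : ¬ i₂ = i₁ := fun h => h1 (h2.trans h)
      simp only [this, if_false]
      fun_prop
    · simp only [emb, h1, if_false, h2]; fun_prop

theorem emb_update (h1 : j ≠ i₁) (h2 : j ≠ i₂) (h12 : i₁ ≠ i₂) (y : Fin 3 → ℂ) (τ : ℂ) :
    emb i₁ i₂ (y i₁, y i₂) τ = Function.update y j τ := by
  funext l
  have hl : l = i₁ ∨ l = i₂ ∨ l = j := cases3 h1 h2 h12 l
  rcases hl with h | h | h
  · subst h; simp [emb, Function.update_of_ne h1.symm]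
  · subst h; simp [emb, h12.symm, Function.update_of_ne h2.symm]
  · subst h; simp [emb, h1, h2]

theorem norm_emb_sub_le (q q' : ℂ × ℂ) (τ τ' : ℂ) {R : ℝ} (hq : ‖q - q'‖ ≤ R) (hτ : ‖τ - τ'‖ ≤ R) :
    ‖emb i₁ i₂ q τ - emb i₁ i₂ q' τ'‖ ≤ R := by
  have hR : 0 ≤ R := (norm_nonneg _).trans hτ
  refine (pi_norm_le_iff_of_nonneg hR).2 fun l => ?_
  rw [Prod.norm_def] at hq
  simp only [Pi.sub_apply, emb]
  split_ifs
  · exact (le_max_left _ _).trans hq
  · exact (le_max_right _ _).trans hq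
  · exact hτ

/-- **Roots of the rescaled function**, with a bound for the derivative. -/
theorem local_roots (hw : ∀ i, 0 < w i) {g G : (Fin 3 → ℂ) → ℂ} {n : ℕ} (hc : Continuous G)
    (hpoly : ∀ (j : Fin 3) (y : Fin 3 → ℂ), ∃ q : Polynomial ℂ, ∀ τ : ℂ,
      q.eval τ = G (Function.update y j τ))
    (hg : AnalyticAt ℂ g 0)
    (hlim : ∀ R : ℝ, ∀ ε > 0, ∃ l₀ > 0, l₀ ≤ 1 ∧ ∀ l : ℂ, ‖l‖ ≤ l₀ → ∀ y : Fin 3 → ℂ, ‖y‖ ≤ R →
        ‖g (Sc w l y) - l ^ n * G y‖ ≤ ε * ‖l‖ ^ n)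
    (h1 : j ≠ i₁) (h2 : j ≠ i₂) (h12 : i₁ ≠ i₂) {y : Fin 3 → ℂ} (hy : G y = 0)
    (hτ : ∃ τ, G (Function.update y j τ) ≠ 0) :
    ∃ δ > 0, ∃ B > 0, ∃ R > 0, ∃ l₀ > 0, l₀ ≤ 1 ∧ ∀ l : ℝ, 0 < l → l ≤ l₀ →
      ∀ q ∈ ball (y i₁, y i₂) δ, ∃ τ : ℂ, ‖emb i₁ i₂ q τ‖ ≤ R ∧
        g (Sc w l (emb i₁ i₂ q τ)) = 0 ∧
        l ^ w j * ‖fderiv ℂ g (Sc w l (emb i₁ i₂ q τ)) (Pi.single j 1)‖ ≤ B * l ^ n := by
  obtain ⟨ρg, hρg, han⟩ := Metric.eventually_nhds_iff_ball.1 hg.eventually_analyticAt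
  set q₀ : ℂ × ℂ := (y i₁, y i₂) with hq₀
  set τ₀ : ℂ := y j with hτ₀
  have hemb0 : emb i₁ i₂ q₀ τ₀ = y := by
    rw [hq₀, emb_update h1 h2 h12, hτ₀, Function.update_eq_self]
  -- a circle without zeros
  obtain ⟨q, hq⟩ := hpoly j y
  have hq0 : q ≠ 0 := by
    rintro rfl
    obtain ⟨τ, hτ⟩ := hτ
    apply hτ
    rw [← hq, Polynomial.eval_zero]
  obtain ⟨ρ₀, hρ₀, hρ₀r⟩ := (Set.Ioo_infinite (zero_lt_one (α := ℝ))).exists_notMem_finset
    (q.roots.toFinset.image fun r => ‖r - τ₀‖)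
  have hsph : ∀ τ ∈ sphere τ₀ ρ₀, G (emb i₁ i₂ q₀ τ) ≠ 0 := by
    intro τ hτ h
    rw [hq₀, emb_update h1 h2 h12, ← hq] at h
    apply hρ₀r
    rw [Finset.mem_image]
    refine ⟨τ, ?_, ?_⟩
    · rw [Multiset.mem_toFinset, Polynomial.mem_roots hq0]
      exact h
    · rw [← dist_eq_norm]; exact hτ
  have hGc : Continuous fun p : (ℂ × ℂ) × ℂ => ‖G (emb i₁ i₂ p.1 p.2)‖ :=
    (hc.comp emb_continuous).norm
  have hne : (sphere τ₀ ρ₀).Nonempty := NormedSpace.sphere_nonempty.2 hρ₀.1.le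
  obtain ⟨τm, hτm, hmin⟩ := (isCompact_sphere τ₀ ρ₀).exists_isMinOn hne
    ((hGc.comp (Continuous.prodMk_right q₀)).continuousOn)
  set m₀ : ℝ := ‖G (emb i₁ i₂ q₀ τm)‖ with hm₀
  have hm₀0 : 0 < m₀ := norm_pos_iff.2 (hsph τm hτm)
  -- a uniform neighbourhood
  obtain ⟨U, V, hU, -, hqU, hSV, hUV⟩ := generalized_tube_lemma
    (isCompact_singleton (x := q₀)) (isCompact_sphere τ₀ ρ₀)
    (isOpen_lt (continuous_const (y := 3 / 4 * m₀)) hGc) (by
      rintro ⟨q', τ⟩ ⟨hq', hτ'⟩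
      rw [mem_singleton_iff] at hq'
      simp only [mem_ofPred_eq]
      rw [show q' = q₀ from hq']
      have : m₀ ≤ ‖G (emb i₁ i₂ q₀ τ)‖ := hmin hτ'
      linarith)
  have hcen : ∀ᶠ q' in 𝓝 q₀, ‖G (emb i₁ i₂ q' τ₀)‖ < m₀ / 16 := by
    have hcc : Continuous fun q' : ℂ × ℂ => ‖G (emb i₁ i₂ q' τ₀)‖ :=
      hGc.comp (Continuous.prodMk_left τ₀)
    refine hcc.continuousAt.eventually (gt_mem_nhds ?_)
    show ‖G (emb i₁ i₂ q₀ τ₀)‖ < m₀ / 16
    rw [hemb0, hy, norm_zero]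
    positivity
  obtain ⟨δ₁, hδ₁, hδ₁U⟩ := Metric.eventually_nhds_iff_ball.1
    (hcen.and (hU.mem_nhds (hqU (mem_singleton _))))
  set R : ℝ := ‖y‖ + 2 with hR
  have hR0 : 0 < R := by positivity
  have hembR : ∀ q' : ℂ × ℂ, ‖q' - q₀‖ ≤ 2 → ∀ τ : ℂ, ‖τ - τ₀‖ ≤ 2 → ‖emb i₁ i₂ q' τ‖ ≤ R := by
    intro q' hq' τ hτ
    have := norm_emb_sub_le (i₁ := i₁) (i₂ := i₂) q' q₀ τ τ₀ hq' hτ
    rw [hemb0] at this
    calc ‖emb i₁ i₂ q' τ‖ = ‖(emb i₁ i₂ q' τ - y) + y‖ := by rw [sub_add_cancel]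
      _ ≤ ‖emb i₁ i₂ q' τ - y‖ + ‖y‖ := norm_add_le _ _
      _ ≤ R := by rw [hR]; linarith
  obtain ⟨MG, hMG⟩ := (isCompact_closedBall (0 : Fin 3 → ℂ) R).exists_bound_of_continuousOn
    hc.continuousOn
  have hMG0 : 0 ≤ MG := (norm_nonneg _).trans (hMG 0 (mem_closedBall_self hR0.le))
  obtain ⟨l₁, hl₁, hl₁1, hlim'⟩ := hlim R (m₀ / 16) (by positivity)
  refine ⟨min δ₁ 1, by positivity, MG + m₀ / 16, by positivity, R, hR0,
    min l₁ (ρg / (2 * R)), by positivity, (min_le_left _ _).trans hl₁1, fun l hl hll q' hq' => ?_⟩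
  have hll1 : ‖(l : ℂ)‖ ≤ l₁ := by
    rw [Complex.norm_real, Real.norm_of_nonneg hl.le]
    exact hll.trans (min_le_left _ _)
  have hnl : ‖(l : ℂ)‖ = l := by rw [Complex.norm_real, Real.norm_of_nonneg hl.le]
  have hq'1 : q' ∈ ball q₀ δ₁ := ball_subset_ball (min_le_left _ _) hq'
  have hq'2 : ‖q' - q₀‖ ≤ 2 := by
    have := mem_ball.1 (ball_subset_ball (min_le_right _ _) hq')
    rw [dist_eq_norm] at this
    linarith
  have hln : 0 < l ^ n := pow_pos hl n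
  -- the function of one variable
  set u : ℂ → ℂ := fun τ => g (Sc w l (emb i₁ i₂ q' τ)) with hu
  have hdom : ∀ τ : ℂ, ‖τ - τ₀‖ ≤ 2 → Sc w l (emb i₁ i₂ q' τ) ∈ ball (0 : Fin 3 → ℂ) ρg := by
    intro τ hτ
    rw [mem_ball_zero_iff]
    refine (norm_Sc_le hw (hll1.trans hl₁1) _).trans_lt ?_
    rw [hnl]
    calc l * ‖emb i₁ i₂ q' τ‖ ≤ ρg / (2 * R) * R := by
          refine mul_le_mul (hll.trans (min_le_right _ _)) (hembR q' hq'2 τ hτ) (norm_nonneg _)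
            (by positivity)
      _ = ρg / 2 := by field_simp
      _ < ρg := by linarith
  have hest : ∀ τ : ℂ, ‖τ - τ₀‖ ≤ 2 → ‖u τ - (l : ℂ) ^ n * G (emb i₁ i₂ q' τ)‖ ≤
      m₀ / 16 * l ^ n := by
    intro τ hτ
    have := hlim' l hll1 _ (hembR q' hq'2 τ hτ)
    rwa [hnl] at this
  have hnorm : ∀ v : ℂ, ‖(l : ℂ) ^ n * v‖ = l ^ n * ‖v‖ := fun v => by
    rw [norm_mul, norm_pow, hnl]
  have hderiv : ∀ τ : ℂ, ‖τ - τ₀‖ ≤ 2 → HasDerivAt u
      (fderiv ℂ g (Sc w l (emb i₁ i₂ q' τ)) ((l : ℂ) ^ w j • Pi.single j 1)) τ := by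
    intro τ hτ
    have hd1 : HasDerivAt (fun τ : ℂ => Sc w l (emb i₁ i₂ q' τ))
        ((l : ℂ) ^ w j • (Pi.single j 1 : Fin 3 → ℂ)) τ := by
      refine hasDerivAt_pi.2 fun i => ?_
      have hi : i = i₁ ∨ i = i₂ ∨ i = j := cases3 h1 h2 h12 i
      simp only [Sc, Pi.smul_apply, smul_eq_mul]
      rcases hi with h | h | h
      · subst h
        simp only [emb, if_true, Pi.single_eq_of_ne h1.symm, mul_zero]
        exact hasDerivAt_const _ _
      · subst h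
        simp only [emb, h12.symm, if_false, if_true, Pi.single_eq_of_ne h2.symm, mul_zero]
        exact hasDerivAt_const _ _
      · subst h
        simp only [emb, h1, h2, if_false, Pi.single_eq_same]
        exact (hasDerivAt_id τ).const_mul _
    exact (han _ (hdom τ hτ)).differentiableAt.hasFDerivAt.comp_hasDerivAt τ hd1
  have hana : AnalyticOnNhd ℂ u (ball τ₀ 2) := by
    have hd : DifferentiableOn ℂ u (ball τ₀ 2) := fun τ hτ => by
      rw [mem_ball, dist_eq_norm] at hτ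
      exact (hderiv τ hτ.le).differentiableAt.differentiableWithinAt
    exact hd.analyticOnNhd isOpen_ball
  have hρ₀1 : ρ₀ < 1 := hρ₀.2
  have hcl : closedBall τ₀ ρ₀ ⊆ ball τ₀ 2 := closedBall_subset_ball (by linarith)
  have hsphere : ∀ z ∈ sphere τ₀ ρ₀, 9 / 16 * m₀ * l ^ n ≤ ‖u z - u τ₀‖ := by
    intro z hz
    have hz2 : ‖z - τ₀‖ ≤ 2 := by
      have : ‖z - τ₀‖ = ρ₀ := by rw [← dist_eq_norm]; exact hz
      linarith
    have e1 := hest z hz2
    have e2 := hest τ₀ (by simp)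
    have e3 : 3 / 4 * m₀ < ‖G (emb i₁ i₂ q' z)‖ := by
      have : (q', z) ∈ U ×ˢ V := ⟨(hδ₁U q' hq'1).2, hSV hz⟩
      exact hUV this
    have e4 : ‖G (emb i₁ i₂ q' τ₀)‖ < m₀ / 16 := (hδ₁U q' hq'1).1
    have e5 : ‖(l : ℂ) ^ n * G (emb i₁ i₂ q' z)‖ ≤ ‖u z - u τ₀‖ +
        ‖u z - (l : ℂ) ^ n * G (emb i₁ i₂ q' z)‖ +
        ‖u τ₀ - (l : ℂ) ^ n * G (emb i₁ i₂ q' τ₀)‖ + ‖(l : ℂ) ^ n * G (emb i₁ i₂ q' τ₀)‖ := by
      have : (l : ℂ) ^ n * G (emb i₁ i₂ q' z) = (u z - u τ₀) -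
        (u z - (l : ℂ) ^ n * G (emb i₁ i₂ q' z)) +
        (u τ₀ - (l : ℂ) ^ n * G (emb i₁ i₂ q' τ₀)) + (l : ℂ) ^ n * G (emb i₁ i₂ q' τ₀) := by ring
      calc ‖(l : ℂ) ^ n * G (emb i₁ i₂ q' z)‖ = ‖(u z - u τ₀) -
        (u z - (l : ℂ) ^ n * G (emb i₁ i₂ q' z)) +
        (u τ₀ - (l : ℂ) ^ n * G (emb i₁ i₂ q' τ₀)) + (l : ℂ) ^ n * G (emb i₁ i₂ q' τ₀)‖ := by
            rw [← this]
        _ ≤ _ := (norm_add_le _ _).trans (add_le_add ((norm_add_le _ _).trans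
            (add_le_add (norm_sub_le _ _) le_rfl)) le_rfl)
    rw [hnorm, hnorm] at e5
    have e6 : l ^ n * (3 / 4 * m₀) ≤ l ^ n * ‖G (emb i₁ i₂ q' z)‖ := by gcongr
    have e7 : l ^ n * ‖G (emb i₁ i₂ q' τ₀)‖ ≤ l ^ n * (m₀ / 16) := by gcongr
    nlinarith
  have hzero : (0 : ℂ) ∈ u '' closedBall τ₀ ρ₀ := by
    have hd : DiffContOnCl ℂ u (ball τ₀ ρ₀) := by
      refine ⟨hana.differentiableOn.mono (ball_subset_ball (by linarith)), ?_⟩
      exact hana.continuousOn.mono ((closure_ball_subset_closedBall).trans hcl)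
    refine hd.ball_subset_image_closedBall hρ₀.1 hsphere ?_ ?_
    · intro hcon
      have hev : ∀ᶠ z in 𝓝 τ₀, u z = u τ₀ := by
        filter_upwards [hcon] with z hz
        simpa using hz
      have hev2 : (fun z => u z - u τ₀) =ᶠ[𝓝 τ₀] 0 := by
        filter_upwards [hev] with z hz
        simp [hz]
      obtain ⟨z, hz⟩ := hne
      have h3 := (hana.sub (fun z _ => analyticAt_const (v := u τ₀))
        : AnalyticOnNhd ℂ (fun z => u z - u τ₀) (ball τ₀ 2)).eqOn_zero_of_preconnected_of_eventuallyEq_zero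
        (convex_ball τ₀ 2).isPreconnected (mem_ball_self (by norm_num)) hev2
        (hcl (sphere_subset_closedBall hz))
      have h4 := hsphere z hz
      have h5 : u z - u τ₀ = 0 := h3
      rw [h5, norm_zero] at h4
      have : 0 < 9 / 16 * m₀ * l ^ n := by positivity
      linarith
    · rw [mem_ball, dist_eq_norm, zero_sub, norm_neg]
      have e2 := hest τ₀ (by simp)
      have e4 : ‖G (emb i₁ i₂ q' τ₀)‖ < m₀ / 16 := (hδ₁U q' hq'1).1
      have e5 : ‖u τ₀‖ ≤ ‖u τ₀ - (l : ℂ) ^ n * G (emb i₁ i₂ q' τ₀)‖ +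
          ‖(l : ℂ) ^ n * G (emb i₁ i₂ q' τ₀)‖ := by
        calc ‖u τ₀‖ = ‖(u τ₀ - (l : ℂ) ^ n * G (emb i₁ i₂ q' τ₀)) +
              (l : ℂ) ^ n * G (emb i₁ i₂ q' τ₀)‖ := by rw [sub_add_cancel]
          _ ≤ _ := norm_add_le _ _
      rw [hnorm] at e5
      have e7 : l ^ n * ‖G (emb i₁ i₂ q' τ₀)‖ ≤ l ^ n * (m₀ / 16) := by gcongr
      have : 0 < m₀ * l ^ n := by positivity
      nlinarith
  obtain ⟨τ, hτc, hτ0⟩ := hzero
  have hτ1 : ‖τ - τ₀‖ ≤ ρ₀ := by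
    rw [← dist_eq_norm]; exact hτc
  refine ⟨τ, hembR q' hq'2 τ (by linarith), hτ0, ?_⟩
  -- Cauchy estimate
  have hsub : closedBall τ 1 ⊆ ball τ₀ 2 := by
    intro z hz
    rw [mem_closedBall] at hz
    rw [mem_ball]
    calc dist z τ₀ ≤ dist z τ + dist τ τ₀ := dist_triangle _ _ _
      _ ≤ 1 + ρ₀ := add_le_add hz (by rw [dist_eq_norm]; exact hτ1)
      _ < 2 := by linarith
  have hC := Complex.norm_deriv_le_of_forall_mem_sphere_norm_le (f := u) (c := τ) (R := 1)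
    (C := (MG + m₀ / 16) * l ^ n) one_pos
    ⟨hana.differentiableOn.mono (ball_subset_closedBall.trans hsub),
      hana.continuousOn.mono ((closure_ball_subset_closedBall).trans hsub)⟩ (by
      intro z hz
      have hz2 : ‖z - τ₀‖ ≤ 2 := by
        have := hsub (sphere_subset_closedBall hz)
        rw [mem_ball, dist_eq_norm] at this
        exact this.le
      have e1 := hest z hz2
      have e3 : ‖G (emb i₁ i₂ q' z)‖ ≤ MG := hMG _ (by
        rw [mem_closedBall_zero_iff]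
        exact hembR q' hq'2 z hz2)
      have e5 : ‖u z‖ ≤ ‖u z - (l : ℂ) ^ n * G (emb i₁ i₂ q' z)‖ +
          ‖(l : ℂ) ^ n * G (emb i₁ i₂ q' z)‖ := by
        calc ‖u z‖ = ‖(u z - (l : ℂ) ^ n * G (emb i₁ i₂ q' z)) +
              (l : ℂ) ^ n * G (emb i₁ i₂ q' z)‖ := by rw [sub_add_cancel]
          _ ≤ _ := norm_add_le _ _
      rw [hnorm] at e5
      have e7 : l ^ n * ‖G (emb i₁ i₂ q' z)‖ ≤ l ^ n * MG := by gcongr
      nlinarith)
  rw [div_one, (hderiv τ (by linarith)).deriv, map_smul, smul_eq_mul, norm_mul, norm_pow,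
    hnl] at hC
  exact hC

end Vale.Agent.P298.H995
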