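import Vale.Agent.P298.H995.W1
import Vale.Agent.P298.H995.W3
import Vale.Agent.P298.H967.InI

/-!
P298, row LC-W (helper995), part 4: weighted discs of roots and the divergence of the integral.
-/

namespace Vale.Agent.P298.H995

open Filter Topology Metric MeasureTheory Set Vale.Agent.P298 Vale.Agent.P298.H379
  Vale.Agent.P298.H373
open scoped ENNReal

variable {w : Fin 3 → ℕ} {f : (Fin 3 → ℂ) → ℂ} {T : (Fin 3 → ℂ) ≃L[ℂ] (Fin 3 → ℂ)}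

/-- the coordinates after the linear change `T` -/
noncomputable def cc (T : (Fin 3 → ℂ) ≃L[ℂ] (Fin 3 → ℂ)) (i : Fin 3) (x : Fin 3 → ℂ) : ℂ := T.symm x i

theorem cc_T (T : (Fin 3 → ℂ) ≃L[ℂ] (Fin 3 → ℂ)) (i : Fin 3) (y : Fin 3 → ℂ) :
    cc T i (T y) = y i := by
  simp [cc]

/-- the coordinate as a continuous linear map -/
noncomputable def ccL (T : (Fin 3 → ℂ) ≃L[ℂ] (Fin 3 → ℂ)) (i : Fin 3) : (Fin 3 → ℂ) →L[ℂ] ℂ :=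
  (ContinuousLinearMap.proj i : (Fin 3 → ℂ) →L[ℂ] ℂ).comp (T.symm : (Fin 3 → ℂ) →L[ℂ] (Fin 3 → ℂ))

theorem cc_eq (T : (Fin 3 → ℂ) ≃L[ℂ] (Fin 3 → ℂ)) (i : Fin 3) : cc T i = ccL T i := rfl

theorem cc_analytic (T : (Fin 3 → ℂ) ≃L[ℂ] (Fin 3 → ℂ)) (i : Fin 3) (Ω : Set (Fin 3 → ℂ)) :
    AnalyticOnNhd ℂ (cc T i) Ω := fun x _ => (ccL T i).analyticAt x

theorem pd_cc (T : (Fin 3 → ℂ) ≃L[ℂ] (Fin 3 → ℂ)) (l m : Fin 3) (x : Fin 3 → ℂ) :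
    pd l (cc T m) x = T.symm (Pi.single l 1) m := by
  unfold pd
  rw [cc_eq, (ccL T m).fderiv]
  rfl

theorem jac3_formula (f g h : (Fin 3 → ℂ) → ℂ) (x : Fin 3 → ℂ) : jac3 f g h x =
      pd 0 f x * (pd 1 g x * pd 2 h x - pd 2 g x * pd 1 h x) -
      pd 1 f x * (pd 0 g x * pd 2 h x - pd 2 g x * pd 0 h x) +
      pd 2 f x * (pd 0 g x * pd 1 h x - pd 1 g x * pd 0 h x) := by
  simp only [jac3, Matrix.det_fin_three, Matrix.of_apply]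
  simp
  ring

theorem pd_comp {y : Fin 3 → ℂ} (hf : DifferentiableAt ℂ f (T y)) (l : Fin 3) :
    pd l f (T y) = ∑ m, T.symm (Pi.single l 1) m * pd m (fun y => f (T y)) y := by
  rw [← fderiv_apply_pd]
  have h1 : HasFDerivAt (fun y => f (T y))
      ((fderiv ℂ f (T y)).comp (T : (Fin 3 → ℂ) →L[ℂ] (Fin 3 → ℂ))) y :=
    hf.hasFDerivAt.comp y (T : (Fin 3 → ℂ) →L[ℂ] (Fin 3 → ℂ)).hasFDerivAt
  rw [h1.fderiv]
  simp [pd]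

theorem jac3_cc {y : Fin 3 → ℂ} (hf : DifferentiableAt ℂ f (T y)) {i₁ i₂ j : Fin 3} (h1 : j ≠ i₁)
    (h2 : j ≠ i₂) (h12 : i₁ ≠ i₂) : jac3 f (cc T i₁) (cc T i₂) (T y) =
      pd j (fun y => f (T y)) y * jac3 (cc T j) (cc T i₁) (cc T i₂) 0 := by
  simp only [jac3_formula, pd_cc, pd_comp hf, Patch.sum_ijk h1 h2 h12]
  ring

theorem exists_compl (j : Fin 3) : ∃ i₁ i₂ : Fin 3, j ≠ i₁ ∧ j ≠ i₂ ∧ i₁ ≠ i₂ ∧
    ∀ w : Fin 3 → ℕ, w i₁ + w i₂ + w j = w 0 + w 1 + w 2 := by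
  fin_cases j
  · exact ⟨1, 2, by decide, by decide, by decide, fun w => by simp; omega⟩
  · exact ⟨0, 2, by decide, by decide, by decide, fun w => by simp; omega⟩
  · exact ⟨0, 1, by decide, by decide, by decide, fun w => by simp⟩

/-- the order of the initial form is at least the exponent of growth -/
theorem le_order (hw : ∀ i, 0 < w i) {g G : (Fin 3 → ℂ) → ℂ} {n D : ℕ} (hne : ∃ y, G y ≠ 0)
    (hhom : ∀ l y, G (Sc w l y) = l ^ n * G y)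
    (hlim : ∀ R : ℝ, ∀ ε > 0, ∃ l₀ > 0, l₀ ≤ 1 ∧ ∀ l : ℂ, ‖l‖ ≤ l₀ → ∀ y : Fin 3 → ℂ, ‖y‖ ≤ R →
        ‖g (Sc w l y) - l ^ n * G y‖ ≤ ε * ‖l‖ ^ n)
    (hgr : ∃ C : ℝ, ∀ᶠ l : ℝ in 𝓝[>] 0, ∀ y : Fin 3 → ℂ, ‖y‖ ≤ 1 →
      ‖g (Sc w (l : ℂ) y)‖ ≤ C * l ^ D) : D ≤ n := by
  by_contra hcon
  push Not at hcon
  obtain ⟨y₁, hy₁⟩ := hne
  obtain ⟨C, hC⟩ := hgr
  -- a point in the unit ball
  obtain ⟨y, hy1, hy⟩ : ∃ y : Fin 3 → ℂ, ‖y‖ ≤ 1 ∧ G y ≠ 0 := by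
    have ht0 : (0 : ℝ) < 1 / (1 + ‖y₁‖) := by positivity
    have ht1 : 1 / (1 + ‖y₁‖) ≤ 1 := by
      rw [div_le_one (by positivity)]
      linarith [norm_nonneg y₁]
    have hnt : ‖((1 / (1 + ‖y₁‖) : ℝ) : ℂ)‖ = 1 / (1 + ‖y₁‖) := by
      rw [Complex.norm_real, Real.norm_of_nonneg ht0.le]
    refine ⟨Sc w ((1 / (1 + ‖y₁‖) : ℝ) : ℂ) y₁, ?_, ?_⟩
    · refine (norm_Sc_le hw (by rw [hnt]; exact ht1) y₁).trans ?_
      rw [hnt, one_div, inv_mul_le_iff₀ (by positivity)]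
      linarith
    · rw [hhom]
      refine mul_ne_zero (pow_ne_zero _ ?_) hy₁
      rw [← norm_ne_zero_iff, hnt]
      exact ht0.ne'
  have hGy : 0 < ‖G y‖ := norm_pos_iff.2 hy
  obtain ⟨l₀, hl₀, hl₀1, hl⟩ := hlim 1 (‖G y‖ / 2) (by positivity)
  have hsmall : ∀ᶠ l in 𝓝[>] (0 : ℝ), l < min l₀ (‖G y‖ / (2 * (|C| + 1))) :=
    Filter.Eventually.filter_mono nhdsWithin_le_nhds (gt_mem_nhds (by positivity))
  obtain ⟨l, ⟨hl1, hl2⟩, hl3⟩ := ((hC.and hsmall).and eventually_mem_nhdsWithin).exists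
  have hl0 : (0 : ℝ) < l := hl3
  have hnl : ‖(l : ℂ)‖ = l := by rw [Complex.norm_real, Real.norm_of_nonneg hl0.le]
  have e1 := hl1 y hy1
  have e2 := hl (l : ℂ) (by rw [hnl]; exact hl2.le.trans (min_le_left _ _)) y hy1
  rw [hnl] at e2
  have e3 : ‖(l : ℂ) ^ n * G y‖ = l ^ n * ‖G y‖ := by rw [norm_mul, norm_pow, hnl]
  have e4 : l ^ n * ‖G y‖ ≤ C * l ^ D + ‖G y‖ / 2 * l ^ n := by
    rw [← e3]
    calc ‖(l : ℂ) ^ n * G y‖ = ‖g (Sc w l y) - (g (Sc w l y) - (l : ℂ) ^ n * G y)‖ := by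
          rw [sub_sub_cancel]
      _ ≤ _ := (norm_sub_le _ _).trans (add_le_add e1 e2)
  have hln : 0 < l ^ n := pow_pos hl0 n
  have hl1' : l ≤ 1 := (hl2.le.trans (min_le_left _ _)).trans hl₀1
  have e5 : C * l ^ D ≤ (|C| + 1) * (l ^ n * l) := by
    have h1 : l ^ D ≤ l ^ (n + 1) := pow_le_pow_of_le_one hl0.le hl1' hcon
    rw [← pow_succ]
    calc C * l ^ D ≤ (|C| + 1) * l ^ D := by
          gcongr
          linarith [le_abs_self C]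
      _ ≤ _ := by gcongr
  have e6 : l * (2 * (|C| + 1)) < ‖G y‖ := by
    have h1 := hl2.trans_le (min_le_right _ _)
    rwa [lt_div_iff₀ (by positivity)] at h1
  have e7 : (|C| + 1) * (l ^ n * l) < l ^ n * (‖G y‖ / 2) := by
    have : (|C| + 1) * (l ^ n * l) = l ^ n * (l * (2 * (|C| + 1)) / 2) := by ring
    rw [this]
    gcongr
  linarith

/-- the bidiscs -/
def Qd (w : Fin 3 → ℕ) (i₁ i₂ : Fin 3) (q₀ : ℂ × ℂ) (δ l : ℝ) : Set (ℂ × ℂ) :=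
  ball ((l : ℂ) ^ w i₁ * q₀.1) (l ^ w i₁ * δ) ×ˢ ball ((l : ℂ) ^ w i₂ * q₀.2) (l ^ w i₂ * δ)

theorem volume_Qd {w : Fin 3 → ℕ} {i₁ i₂ : Fin 3} {q₀ : ℂ × ℂ} {δ l : ℝ} (hδ : 0 ≤ δ)
    (hl : 0 ≤ l) : volume (Qd w i₁ i₂ q₀ δ l) =
      ENNReal.ofReal ((l ^ w i₁ * δ) ^ 2 * Real.pi * ((l ^ w i₂ * δ) ^ 2 * Real.pi)) := by
  have hv : ∀ (c : ℂ) (r : ℝ), 0 ≤ r → volume (ball c r) = ENNReal.ofReal (r ^ 2 * Real.pi) := by
    intro c r hr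
    rw [Complex.volume_ball, ENNReal.ofReal_mul (by positivity), ENNReal.ofReal_pow hr]
    congr 1
    rw [← NNReal.coe_real_pi, ENNReal.ofReal_coe_nnreal]
  unfold Qd
  rw [Measure.volume_eq_prod, Measure.prod_prod, hv _ _ (by positivity), hv _ _ (by positivity),
    ← ENNReal.ofReal_mul (by positivity)]

theorem measurableSet_Qd {w : Fin 3 → ℕ} {i₁ i₂ : Fin 3} {q₀ : ℂ × ℂ} {δ l : ℝ} :
    MeasurableSet (Qd w i₁ i₂ q₀ δ l) := measurableSet_ball.prod measurableSet_ball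

theorem tendsto_volume_Qd {w : Fin 3 → ℕ} (hw : ∀ i, 0 < w i) {i₁ i₂ : Fin 3} {q₀ : ℂ × ℂ} {δ : ℝ}
    (hδ : 0 ≤ δ) : Tendsto (fun l : ℝ => volume (Qd w i₁ i₂ q₀ δ l)) (𝓝[>] 0) (𝓝 0) := by
  have h1 : Tendsto (fun l : ℝ =>
      ENNReal.ofReal ((l ^ w i₁ * δ) ^ 2 * Real.pi * ((l ^ w i₂ * δ) ^ 2 * Real.pi)))
      (𝓝[>] 0) (𝓝 0) := by
    have hc : Continuous fun l : ℝ =>
        ENNReal.ofReal ((l ^ w i₁ * δ) ^ 2 * Real.pi * ((l ^ w i₂ * δ) ^ 2 * Real.pi)) := by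
      refine ENNReal.continuous_ofReal.comp ?_
      fun_prop
    have := (hc.tendsto 0).mono_left (nhdsWithin_le_nhds (s := Ioi 0))
    simpa [(hw i₁).ne', (hw i₂).ne'] using this
  refine h1.congr' ?_
  filter_upwards [eventually_mem_nhdsWithin] with l hl
  rw [volume_Qd hδ (le_of_lt hl)]

end Vale.Agent.P298.H995
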