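import Vale.Agent.P298.H995.W4

/-!
P298, row LC-W (helper995), part 5: functions of large weighted order are not integrable.
-/

namespace Vale.Agent.P298.H995

open Filter Topology Metric MeasureTheory Set Vale.Agent.P298 Vale.Agent.P298.H379
  Vale.Agent.P298.H373
open scoped ENNReal

variable {w : Fin 3 → ℕ} {f : (Fin 3 → ℂ) → ℂ}

/-- a polydisc in which `f` is analytic, has no critical point besides `0`, and is regular in
the third variable -/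
theorem exists_Om (hf : Hol f)
    (hcrit : ∀ᶠ x in 𝓝 (0 : Fin 3 → ℂ), (∀ l, pd l f x = 0) → x = 0)
    (hreg : ¬ ∀ᶠ z in 𝓝 (0 : ℂ), f (pt 0 z) = 0) {r : ℝ} (hr : 0 < r) :
    ∃ ρ₁ > 0, ∃ ρ > 0, Om ρ₁ ρ ⊆ ball 0 r ∧ AnalyticOnNhd ℂ f (Om ρ₁ ρ) ∧
      (∃ z, ‖z‖ < ρ ∧ ∀ x ∈ Om ρ₁ ρ, f (pt (pr 0 1 x) z) ≠ 0) ∧
      ∀ x ∈ Om ρ₁ ρ, (∀ l, pd l f x = 0) → x = 0 := by
  obtain ⟨ρ', hρ', hb⟩ := Metric.eventually_nhds_iff_ball.1 (hf.eventually_analyticAt.and hcrit)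
  set ρ : ℝ := min ρ' r with hρ
  have hρ0 : 0 < ρ := lt_min hρ' hr
  obtain ⟨z₁, hz₁, hz₁f⟩ : ∃ z₁ : ℂ, ‖z₁‖ < ρ ∧ f (pt 0 z₁) ≠ 0 := by
    by_contra hcon
    push Not at hcon
    exact hreg (Metric.eventually_nhds_iff_ball.2
      ⟨ρ, hρ0, fun z hz => hcon z (mem_ball_zero_iff.1 hz)⟩)
  have hnorm : ∀ x : Fin 3 → ℂ, ‖x 0‖ < ρ → ‖x 1‖ < ρ → ‖x 2‖ < ρ → x ∈ ball 0 ρ := by
    intro x h0 h1 h2
    rw [mem_ball_zero_iff, pi_norm_lt_iff hρ0]
    intro i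
    fin_cases i
    · exact h0
    · exact h1
    · exact h2
  have hptc : Continuous fun p : ℂ × ℂ => pt p z₁ := by
    unfold pt
    refine continuous_pi fun l => ?_
    fin_cases l
    · exact continuous_fst
    · exact continuous_snd
    · exact continuous_const
  have hpt0 : pt 0 z₁ ∈ ball (0 : Fin 3 → ℂ) ρ := by
    refine hnorm _ ?_ ?_ ?_
    · simpa [pt] using hρ0
    · simpa [pt] using hρ0
    · simpa [pt] using hz₁
  have hc : ContinuousAt (fun p : ℂ × ℂ => f (pt p z₁)) 0 :=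
    ContinuousAt.comp' (hb _ (ball_subset_ball (min_le_left _ _) hpt0)).1.continuousAt
      hptc.continuousAt
  obtain ⟨ρ₂, hρ₂, hρ₂f⟩ := Metric.eventually_nhds_iff_ball.1 (hc.eventually_ne hz₁f)
  have hsub : Om (min ρ₂ ρ) ρ ⊆ ball 0 ρ := fun x hx => hnorm x (hx.1.trans_le (min_le_right _ _))
    (hx.2.1.trans_le (min_le_right _ _)) hx.2.2
  refine ⟨min ρ₂ ρ, lt_min hρ₂ hρ0, ρ, hρ0, hsub.trans (ball_subset_ball (min_le_right _ _)),
    fun x hx => (hb x (ball_subset_ball (min_le_left _ _) (hsub hx))).1, ⟨z₁, hz₁, fun x hx => ?_⟩,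
    fun x hx => (hb x (ball_subset_ball (min_le_left _ _) (hsub hx))).2⟩
  refine hρ₂f _ ?_
  rw [mem_ball_zero_iff, Prod.norm_def]
  exact max_lt (hx.1.trans_le (min_le_left _ _)) (hx.2.1.trans_le (min_le_left _ _))

theorem ball_subset_Om {ρ₁ ρ : ℝ} : ball (0 : Fin 3 → ℂ) (min ρ₁ ρ) ⊆ Om ρ₁ ρ := by
  intro x hx
  rw [mem_ball_zero_iff] at hx
  exact ⟨(norm_le_pi_norm x 0).trans_lt (hx.trans_le (min_le_left _ _)),
    (norm_le_pi_norm x 1).trans_lt (hx.trans_le (min_le_left _ _)),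
    (norm_le_pi_norm x 2).trans_lt (hx.trans_le (min_le_right _ _))⟩

/-- **Divergence of the local integral.** -/
theorem core (hf : Hol f) (hf0 : f 0 = 0)
    (hcrit : ∀ᶠ x in 𝓝 (0 : Fin 3 → ℂ), (∀ l, pd l f x = 0) → x = 0)
    (hreg : ¬ ∀ᶠ z in 𝓝 (0 : ℂ), f (pt 0 z) = 0) (T : (Fin 3 → ℂ) ≃L[ℂ] (Fin 3 → ℂ))
    (hw : ∀ i, 0 < w i) {D : ℕ}
    (hgr : ∃ C : ℝ, ∀ᶠ l : ℝ in 𝓝[>] 0, ∀ y : Fin 3 → ℂ, ‖y‖ ≤ 1 →
      ‖f (T (Sc w (l : ℂ) y))‖ ≤ C * l ^ D) :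
    ∃ (i₁ : Fin 3) (c₂ : ℝ) (n : ℕ), 0 < c₂ ∧ D ≤ n ∧
      ∀ (k : ℝ) (h : (Fin 3 → ℂ) → ℂ), Measurable h → ∀ (η : ℝ → ℝ) (c₁ l₁ : ℝ),
        0 < c₁ → 0 < l₁ →
        (∀ l, 0 < l → l ≤ l₁ → 0 ≤ η l ∧
          c₁ * l ^ (2 * n) ≤ η l * l ^ (2 * (w 0 + w 1 + w 2))) →
        (∀ l, 0 < l → l ≤ l₁ → ∀ x, l ^ w i₁ * c₂ ≤ ‖T.symm x i₁‖ → η l ≤ ‖h x‖ ^ (2 / k)) →
        ∀ r > 0, Nloc f r k h = ∞ := by
  have hTg : AnalyticAt ℂ (fun y => f (T y)) 0 := by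
    have h1 : AnalyticAt ℂ f (T 0) := by rw [map_zero]; exact hf
    exact h1.fun_comp ((T : (Fin 3 → ℂ) →L[ℂ] (Fin 3 → ℂ)).analyticAt 0)
  have hg0 : f (T 0) = 0 := by rw [map_zero, hf0]
  have hne : ¬ ∀ᶠ y in 𝓝 (0 : Fin 3 → ℂ), f (T y) = 0 := by
    intro hcon
    apply hreg
    have hc : Tendsto (fun z : ℂ => T.symm (pt 0 z)) (𝓝 0) (𝓝 0) := by
      have hptc : Continuous fun z : ℂ => T.symm (pt 0 z) := by
        refine T.symm.continuous.comp ?_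
        unfold pt
        refine continuous_pi fun l => ?_
        fin_cases l
        · exact continuous_const
        · exact continuous_const
        · exact continuous_id
      have := hptc.tendsto 0
      have h0 : T.symm (pt 0 0) = 0 := by
        have : pt 0 0 = 0 := by
          funext l
          fin_cases l <;> simp [pt]
        rw [this, map_zero]
      rwa [h0] at this
    filter_upwards [hc.eventually hcon] with z hz
    rwa [T.apply_symm_apply] at hz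
  obtain ⟨n, G, hn, hGc, hGne, hhom, hpoly, hlim⟩ := exists_initial hw hTg hg0 hne
  have hDn : D ≤ n := le_order (g := fun y => f (T y)) hw hGne hhom hlim hgr
  have hG0 : G 0 = 0 := by
    have := hhom 0 0
    rwa [zero_pow hn.ne', zero_mul, show Sc w 0 0 = (0 : Fin 3 → ℂ) by
      funext i; simp [Sc]] at this
  obtain ⟨j, y, hy, hτ, hyne⟩ := exists_root hGc hGne hG0 hpoly
  obtain ⟨i₁, i₂, h1, h2, h12, hwsum⟩ := exists_compl j
  obtain ⟨δ₀, hδ₀, B, hB, R, hR, l₀, hl₀, hl₀1, hloc⟩ :=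
    local_roots hw hGc hpoly hTg hlim h1 h2 h12 hy hτ
  have hy1 : 0 < ‖y i₁‖ := norm_pos_iff.2 (hyne i₁ h1.symm)
  refine ⟨i₁, ‖y i₁‖ / 2, n, by positivity, hDn, fun k h hh η c₁ l₁ hc₁ hl₁ hη hlow r hr => ?_⟩
  set c₂ : ℝ := ‖y i₁‖ / 2 with hc₂
  have hc₂0 : 0 < c₂ := by positivity
  obtain ⟨ρ₁, hρ₁, ρ, hρ, hΩr, han, hregΩ, hcritΩ⟩ := exists_Om hf hcrit hreg hr
  set Ω := Om ρ₁ ρ with hΩ
  have hΩo : IsOpen Ω := isOpen_Om _ _
  have ha := cc_analytic T i₁ Ω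
  have hb := cc_analytic T i₂ Ω
  -- the weight
  set φ : (Fin 3 → ℂ) → ℝ≥0∞ := Ω.indicator fun x =>
    ‖h x‖ₑ ^ (2 / k) / ‖jac3 f (cc T i₁) (cc T i₂) x‖ₑ ^ 2 with hφ
  have hφm : Measurable φ := by
    refine Measurable.indicator ?_ hΩo.measurableSet
    exact (hh.enorm.pow_const _).div ((measurable_jac3 _ _ _).enorm.pow_const 2)
  have hφ0 : ∀ x, x ∉ Ω → φ x = 0 := fun x hx => indicator_of_notMem hx _
  set F : ℂ × ℂ → ℝ≥0∞ := fun q => ∑' x : Fib f (cc T i₁) (cc T i₂) Ω 0 q, φ x with hF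
  have hle : ∫⁻ q, F q ≤ Nloc f r k h := by
    rw [← nu_area hΩo han ha hb 0 hφm hφ0]
    unfold Nloc
    refine nu_mono fun x _ _ => ?_
    by_cases hx : x ∈ Ω
    · rw [hφ]
      simp only [indicator_of_mem hx, indicator_of_mem (hΩr hx)]
      exact ENNReal.mul_div_le
    · rw [hφ0 x hx, mul_zero]
      exact zero_le
  by_contra hfin
  have hFfin : ∫⁻ q, F q ≠ ∞ := ne_top_of_le_ne_top hfin hle
  -- constants
  set κ : ℝ := ‖jac3 (cc T j) (cc T i₁) (cc T i₂) 0‖ + 1 with hκ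
  have hκ0 : 0 < κ := by positivity
  set δ : ℝ := min δ₀ c₂ with hδ
  have hδ0 : 0 < δ := lt_min hδ₀ hc₂0
  set M : ℝ := ‖(T : (Fin 3 → ℂ) →L[ℂ] (Fin 3 → ℂ))‖ + 1 with hM
  have hM0 : 0 < M := by positivity
  set ρm : ℝ := min ρ₁ ρ with hρm
  have hρm0 : 0 < ρm := lt_min hρ₁ hρ
  set l₂ : ℝ := min (min l₀ l₁) (ρm / (2 * (M * R))) with hl₂
  have hl₂0 : 0 < l₂ := by positivity
  have hgood := ae_good han hregΩ hcritΩ ha hb
  set c₀ : ℝ := c₁ * δ ^ 4 * Real.pi ^ 2 / (κ * B) ^ 2 with hc₀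
  have hc₀0 : 0 < c₀ := by
    have := Real.pi_pos
    positivity
  -- the lower bound
  have hbound : ∀ l : ℝ, 0 < l → l ≤ l₂ →
      ENNReal.ofReal c₀ ≤ ∫⁻ q in Qd w i₁ i₂ (y i₁, y i₂) δ l, F q := by
    intro l hl hll
    have hll0 : l ≤ l₀ := (hll.trans (min_le_left _ _)).trans (min_le_left _ _)
    have hll1 : l ≤ l₁ := (hll.trans (min_le_left _ _)).trans (min_le_right _ _)
    have hllρ : l ≤ ρm / (2 * (M * R)) := hll.trans (min_le_right _ _)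
    have hl1 : l ≤ 1 := hll0.trans hl₀1
    have hnl : ‖(l : ℂ)‖ = l := by rw [Complex.norm_real, Real.norm_of_nonneg hl.le]
    have hlne : (l : ℂ) ≠ 0 := by
      rw [← norm_ne_zero_iff, hnl]; exact hl.ne'
    set Λ : ℝ := η l * (l ^ w j) ^ 2 / (κ * B * l ^ n) ^ 2 with hΛ
    have hη0 : 0 ≤ η l := (hη l hl hll1).1
    have hpt : ∀ᵐ q ∂(volume.restrict (Qd w i₁ i₂ (y i₁, y i₂) δ l)), ENNReal.ofReal Λ ≤ F q := by
      rw [ae_restrict_iff' measurableSet_Qd]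
      filter_upwards [hgood] with q hq hqQ
      set q' : ℂ × ℂ := (((l : ℂ) ^ w i₁)⁻¹ * q.1, ((l : ℂ) ^ w i₂)⁻¹ * q.2) with hq'
      have hlw : ∀ i, (l : ℂ) ^ w i ≠ 0 := fun i => pow_ne_zero _ hlne
      have hlwn : ∀ i, ‖(l : ℂ) ^ w i‖ = l ^ w i := fun i => by rw [norm_pow, hnl]
      have hlwp : ∀ i, 0 < l ^ w i := fun i => pow_pos hl _
      have hdist : ∀ (i : Fin 3) (u v : ℂ), u ∈ ball ((l : ℂ) ^ w i * v) (l ^ w i * δ) →
          ‖((l : ℂ) ^ w i)⁻¹ * u - v‖ < δ := by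
        intro i u v huv
        rw [mem_ball, dist_eq_norm] at huv
        have e1 : ((l : ℂ) ^ w i)⁻¹ * u - v = ((l : ℂ) ^ w i)⁻¹ * (u - (l : ℂ) ^ w i * v) := by
          rw [mul_sub, ← mul_assoc, inv_mul_cancel₀ (hlw i), one_mul]
        rw [e1, norm_mul, norm_inv, hlwn, inv_mul_lt_iff₀ (hlwp i)]
        exact huv
      have hq'1 : ‖q'.1 - y i₁‖ < δ := hdist i₁ _ _ hqQ.1
      have hq'2 : ‖q'.2 - y i₂‖ < δ := hdist i₂ _ _ hqQ.2
      have hq'b : q' ∈ ball (y i₁, y i₂) δ₀ := by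
        rw [mem_ball, Prod.dist_eq, dist_eq_norm, dist_eq_norm]
        exact (max_lt hq'1 hq'2).trans_le (min_le_left _ _)
      obtain ⟨τ, hτR, hτ0, hτd⟩ := hloc l hl hll0 q' hq'b
      set v : Fin 3 → ℂ := Sc w l (emb i₁ i₂ q' τ) with hv
      set x : Fin 3 → ℂ := T v with hx
      have hv1 : v i₁ = q.1 := by
        rw [hv]
        simp only [Sc, emb, if_true, hq']
        rw [← mul_assoc, mul_inv_cancel₀ (hlw i₁), one_mul]
      have hv2 : v i₂ = q.2 := by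
        rw [hv]
        simp only [Sc, emb, if_true, hq', h12.symm, if_false]
        rw [← mul_assoc, mul_inv_cancel₀ (hlw i₂), one_mul]
      have hax : cc T i₁ x = q.1 := by rw [hx, cc_T, hv1]
      have hbx : cc T i₂ x = q.2 := by rw [hx, cc_T, hv2]
      have hlow1 : l ^ w i₁ * c₂ ≤ ‖q.1‖ := by
        have e1 : c₂ ≤ ‖q'.1‖ := by
          have e2 : ‖y i₁‖ ≤ ‖q'.1‖ + ‖q'.1 - y i₁‖ := by
            calc ‖y i₁‖ = ‖q'.1 - (q'.1 - y i₁)‖ := by rw [sub_sub_cancel]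
              _ ≤ _ := norm_sub_le _ _
          have e3 : δ ≤ c₂ := min_le_right _ _
          have e4 : ‖y i₁‖ = 2 * c₂ := by rw [hc₂]; ring
          linarith
        have e5 : q.1 = (l : ℂ) ^ w i₁ * q'.1 := by
          rw [hq']
          simp only
          rw [← mul_assoc, mul_inv_cancel₀ (hlw i₁), one_mul]
        rw [e5, norm_mul, hlwn]
        exact mul_le_mul_of_nonneg_left e1 (hlwp i₁).le
      have hxΩ : x ∈ Ω := by
        apply ball_subset_Om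
        rw [mem_ball_zero_iff]
        have e1 : ‖v‖ ≤ l * R := by
          refine (norm_Sc_le hw (by rw [hnl]; exact hl1) _).trans ?_
          rw [hnl]
          exact mul_le_mul_of_nonneg_left hτR hl.le
        have e2 : ‖x‖ ≤ M * (l * R) := by
          calc ‖x‖ ≤ ‖(T : (Fin 3 → ℂ) →L[ℂ] (Fin 3 → ℂ))‖ * ‖v‖ :=
                (T : (Fin 3 → ℂ) →L[ℂ] (Fin 3 → ℂ)).le_opNorm v
            _ ≤ M * (l * R) := by
                refine mul_le_mul (by rw [hM]; linarith) e1 (norm_nonneg _) hM0.le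
        have e3 : l * (2 * (M * R)) ≤ ρm := by
          rwa [le_div_iff₀ (by positivity)] at hllρ
        nlinarith
      have hx0 : x ≠ 0 := by
        intro h0
        have e1 : cc T i₁ x = 0 := by rw [h0]; simp [cc]
        rw [hax] at e1
        rw [e1, norm_zero] at hlow1
        have := mul_pos (hlwp i₁) hc₂0
        linarith
      have hfx : f x = 0 := hτ0
      obtain ⟨hp2, hj⟩ := hq x hxΩ hx0 hfx hax hbx
      have hmem : x ∈ Fib f (cc T i₁) (cc T i₂) Ω 0 q := ⟨hxΩ, hfx, hax, hbx, hp2, hj⟩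
      refine le_trans ?_ (ENNReal.le_tsum (⟨x, hmem⟩ : Fib f (cc T i₁) (cc T i₂) Ω 0 q))
      change ENNReal.ofReal Λ ≤ φ x
      rw [hφ, indicator_of_mem hxΩ]
      -- the size of the Jacobian determinant
      have hjle : l ^ w j * ‖jac3 f (cc T i₁) (cc T i₂) x‖ ≤ κ * (B * l ^ n) := by
        rw [hx, jac3_cc (han x hxΩ).differentiableAt h1 h2 h12, norm_mul]
        have e1 : l ^ w j * ‖pd j (fun y => f (T y)) v‖ ≤ B * l ^ n := hτd
        calc l ^ w j * (‖pd j (fun y => f (T y)) v‖ * ‖jac3 (cc T j) (cc T i₁) (cc T i₂) 0‖)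
            = (l ^ w j * ‖pd j (fun y => f (T y)) v‖) *
              ‖jac3 (cc T j) (cc T i₁) (cc T i₂) 0‖ := by ring
          _ ≤ (B * l ^ n) * κ := by
              refine mul_le_mul e1 (by rw [hκ]; linarith) (norm_nonneg _) (by positivity)
          _ = _ := by ring
      have hjp : 0 < ‖jac3 f (cc T i₁) (cc T i₂) x‖ := norm_pos_iff.2 hj
      have hηx : η l ≤ ‖h x‖ ^ (2 / k) := by
        refine hlow l hl hll1 x ?_
        change _ ≤ ‖cc T i₁ x‖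
        rw [hax]
        exact hlow1
      -- conclusion
      have hΛle : Λ ≤ ‖h x‖ ^ (2 / k) / ‖jac3 f (cc T i₁) (cc T i₂) x‖ ^ 2 := by
        rw [hΛ, div_le_div_iff₀ (by positivity) (by positivity)]
        calc η l * (l ^ w j) ^ 2 * ‖jac3 f (cc T i₁) (cc T i₂) x‖ ^ 2
            = η l * (l ^ w j * ‖jac3 f (cc T i₁) (cc T i₂) x‖) ^ 2 := by ring
          _ ≤ ‖h x‖ ^ (2 / k) * (κ * (B * l ^ n)) ^ 2 := by
              refine mul_le_mul hηx ?_ (by positivity) (by positivity)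
              exact pow_le_pow_left₀ (by positivity) hjle 2
          _ = _ := by ring
      refine (ENNReal.ofReal_le_ofReal hΛle).trans ?_
      rw [ENNReal.ofReal_div_of_pos (by positivity), ENNReal.ofReal_pow hjp.le, ofReal_norm]
      refine ENNReal.div_le_div_right ?_ _
      rcases eq_or_ne (h x) 0 with h0 | h0
      · rw [h0, norm_zero, enorm_zero]
        rcases lt_trichotomy (2 / k) 0 with hk | hk | hk
        · rw [ENNReal.zero_rpow_of_neg hk]; exact le_top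
        · rw [hk]; simp
        · rw [Real.zero_rpow hk.ne']; simp
      · rw [← ofReal_norm, ENNReal.ofReal_rpow_of_pos (norm_pos_iff.2 h0)]
    have hvol := volume_Qd (w := w) (i₁ := i₁) (i₂ := i₂) (q₀ := (y i₁, y i₂)) hδ0.le hl.le
    have hΛ0 : 0 ≤ Λ := by positivity
    calc ENNReal.ofReal c₀ ≤ ENNReal.ofReal Λ * volume (Qd w i₁ i₂ (y i₁, y i₂) δ l) := by
          rw [hvol, ← ENNReal.ofReal_mul hΛ0]
          refine ENNReal.ofReal_le_ofReal ?_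
          have e1 := (hη l hl hll1).2
          rw [← hwsum w] at e1
          have e2 : Λ * ((l ^ w i₁ * δ) ^ 2 * Real.pi * ((l ^ w i₂ * δ) ^ 2 * Real.pi)) =
              (η l * l ^ (2 * (w i₁ + w i₂ + w j))) * (δ ^ 4 * Real.pi ^ 2) /
                (κ * B * l ^ n) ^ 2 := by
            rw [hΛ]
            have : l ^ (2 * (w i₁ + w i₂ + w j)) = (l ^ w i₁) ^ 2 * (l ^ w i₂) ^ 2 *
                (l ^ w j) ^ 2 := by ring
            rw [this]
            ring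
          rw [e2, le_div_iff₀ (by positivity), hc₀]
          calc c₁ * δ ^ 4 * Real.pi ^ 2 / (κ * B) ^ 2 * (κ * B * l ^ n) ^ 2
              = (c₁ * l ^ (2 * n)) * (δ ^ 4 * Real.pi ^ 2) := by
                field_simp
                ring
            _ ≤ _ := by gcongr
      _ = ∫⁻ _q in Qd w i₁ i₂ (y i₁, y i₂) δ l, ENNReal.ofReal Λ := by
          rw [setLIntegral_const]
      _ ≤ _ := lintegral_mono_ae hpt
  have htend := tendsto_setLIntegral_zero hFfin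
    (tendsto_volume_Qd (w := w) hw (i₁ := i₁) (i₂ := i₂) (q₀ := (y i₁, y i₂)) hδ0.le)
  have hev1 : ∀ᶠ l : ℝ in 𝓝[>] 0,
      ∫⁻ q in Qd w i₁ i₂ (y i₁, y i₂) δ l, F q < ENNReal.ofReal c₀ :=
    htend.eventually (gt_mem_nhds (ENNReal.ofReal_pos.2 hc₀0))
  have hev2 : ∀ᶠ l : ℝ in 𝓝[>] 0, l ≤ l₂ := by
    refine Filter.Eventually.filter_mono nhdsWithin_le_nhds ?_
    filter_upwards [gt_mem_nhds hl₂0] with l hl using le_of_lt hl
  obtain ⟨l, ⟨e1, e2⟩, e3⟩ := ((hev1.and hev2).and eventually_mem_nhdsWithin).exists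
  exact absurd (hbound l e3 e2) (not_le.2 e1)

end Vale.Agent.P298.H995
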